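import Vale.Agent.P025.R2.H816.J02

/-!
P025, A-END, tree side (helper444), file 1 of (2e): separating elements in a function field `F` of
one variable, with an integral equation at the poles of `T`.
-/

set_option linter.unusedSectionVars false

attribute [local instance] O19.fr O19.tf O19.pj O19.fl

open Polynomial IntermediateField Vale.Agent.P019P

namespace P025H444

variable {k F : Type*} [Field k] [Field F] [Algebra k F]

theorem aeval_mem_val {V : ValuationSubring F} (hk : ∀ a : k, algebraMap k F a ∈ V) {z : F}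
    (hz : z ∈ V) (q : k[X]) : aeval z q ∈ V := by
  rw [aeval_eq_sum_range]
  refine sum_mem fun i _ => ?_
  rw [Algebra.smul_def]
  exact mul_mem (hk _) (pow_mem hz i)

theorem mem_of_isIntegral_val {A : Subalgebra k F} {V : ValuationSubring F}
    (hA : ∀ a ∈ A, a ∈ V) {x : F} (hx : IsIntegral A x) : x ∈ V := by
  obtain ⟨p, hp, hpx⟩ := hx
  let f : A →+* V := A.val.toRingHom.codRestrict V.toSubring fun a => hA a a.2
  have h1 : IsIntegral V x := by
    refine ⟨p.map f, hp.map f, ?_⟩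
    rw [eval₂_map]
    exact hpx
  obtain ⟨y, hy⟩ := IsIntegrallyClosed.isIntegral_iff.mp h1
  rw [← hy]
  exact y.2

/-- integral equation from all valuation rings -/
theorem exists_monic_of_forall {z x : F}
    (h : ∀ V : ValuationSubring F, (∀ a : k, algebraMap k F a ∈ V) → z ∈ V → x ∈ V) :
    ∃ P : k[X][X], P.Monic ∧ eval₂ (aeval z : k[X] →ₐ[k] F).toRingHom x P = 0 := by
  let s : Set F := Set.range (aeval z : k[X] →ₐ[k] F)
  have h1 : x ∈ (integralClosure (Subring.closure s) F).toSubring := by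
    rw [← iInf_valuationSubring_superset, Subring.mem_iInf]
    rintro ⟨V, hV⟩
    refine h V (fun a => hV ⟨Polynomial.C a, ?_⟩) (hV ⟨X, ?_⟩)
    · rw [aeval_C]
    · rw [aeval_X]
  obtain ⟨p, hp, hpx⟩ := h1
  have hs : ∀ a : Subring.closure s, (a : F) ∈ s := by
    intro a
    have h2 : Subring.closure s ≤ (aeval z : k[X] →ₐ[k] F).toRingHom.range :=
      Subring.closure_le.mpr fun y hy => hy
    exact h2 a.2
  have h3 : p.map (Subring.closure s).subtype ∈
      Polynomial.lifts (aeval z : k[X] →ₐ[k] F).toRingHom := by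
    rw [lifts_iff_coeff_lifts]
    intro n
    rw [coeff_map]
    exact hs _
  obtain ⟨P, hP, -, hPm⟩ := lifts_and_natDegree_eq_and_monic h3 (hp.map _)
  refine ⟨P, hPm, ?_⟩
  rw [eval₂_eq_eval_map, hP, ← eval₂_eq_eval_map]
  exact hpx

variable [CFF k F]

/-- integrality from valuations -/
theorem exists_integral_mul {T : F} (hT : ∀ a : k, T ≠ algebraMap k F a) {b : F}
    (hb : ∀ P : Plk k F, T ∉ P.1 → b ∈ P.1) :
    ∃ (Q : k[X]) (P : k[X][X]), Q.coeff 0 = 1 ∧ P.Monic ∧
      eval₂ (aeval T⁻¹ : k[X] →ₐ[k] F).toRingHom (aeval T⁻¹ Q * b) P = 0 := by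
  classical
  have hT0 : T ≠ 0 := fun h => hT 0 (by rw [h, map_zero])
  have hfin : FiniteDimensional k⟮T⁻¹⟯ F := (finite_of_notMem (nc_inv hT)).2
  have halg : Algebra.IsAlgebraic (Algebra.adjoin k {T⁻¹}) F :=
    (IntermediateField.isAlgebraic_adjoin_iff_top (S := F)).1 inferInstance
  obtain ⟨y, hy0, hy⟩ := (halg.isAlgebraic b).exists_integral_multiple
  obtain ⟨q, hq⟩ : ∃ q : k[X], aeval T⁻¹ q = (y : F) := by
    have h1 : ∀ w ∈ Algebra.adjoin k {T⁻¹}, ∃ q : k[X], aeval T⁻¹ q = w := by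
      intro w hw
      rw [Algebra.adjoin_singleton_eq_range_aeval] at hw
      exact hw
    exact h1 y y.2
  have hq0 : q ≠ 0 := by
    rintro rfl
    apply hy0
    apply Subtype.ext
    rw [← hq, map_zero]
    rfl
  obtain ⟨Q0, hQ0, hdvd⟩ := q.exists_eq_pow_rootMultiplicity_mul_and_not_dvd hq0 0
  rw [C_0, sub_zero] at hQ0 hdvd
  set j := q.rootMultiplicity 0
  have hc : Q0.coeff 0 ≠ 0 := by
    intro h
    exact hdvd (X_dvd_iff.mpr h)
  let Q : k[X] := Polynomial.C (Q0.coeff 0)⁻¹ * Q0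
  have hQc : Q.coeff 0 = 1 := by
    rw [coeff_C_mul, inv_mul_cancel₀ hc]
  have hqQ : aeval T⁻¹ q = T⁻¹ ^ j * aeval T⁻¹ Q0 := by
    conv_lhs => rw [hQ0]
    rw [map_mul, map_pow, aeval_X]
  obtain ⟨P, hPm, hP⟩ := exists_monic_of_forall (k := k) (z := T⁻¹) (x := aeval T⁻¹ Q * b) (by
    intro V hk hz
    by_cases hV : V = ⊤
    · rw [hV]; trivial
    by_cases hTV : T ∈ V
    · have h1 : y • b ∈ V := by
        refine mem_of_isIntegral_val (A := Algebra.adjoin k {T⁻¹}) ?_ hy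
        intro a ha
        rw [Algebra.adjoin_singleton_eq_range_aeval] at ha
        obtain ⟨q', rfl⟩ := ha
        exact aeval_mem_val hk hz q'
      have h2 : aeval T⁻¹ Q * b = algebraMap k F (Q0.coeff 0)⁻¹ * (T ^ j * (y • b)) := by
        have h3 : y • b = (y : F) * b := rfl
        rw [h3, ← hq, hqQ, map_mul, aeval_C]
        have h4 : T ^ j * T⁻¹ ^ j = 1 := by
          rw [← mul_pow, mul_inv_cancel₀ hT0, one_pow]
        linear_combination (-(algebraMap k F (Q0.coeff 0)⁻¹ * (aeval T⁻¹ Q0 * b))) * h4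
      rw [h2]
      exact mul_mem (hk _) (mul_mem (pow_mem hTV j) h1)
    · exact mul_mem (aeval_mem_val hk hz Q) (hb ⟨V, hk, hV⟩ hTV))
  exact ⟨Q, P, hQc, hPm, hP⟩

theorem val_lt_one_of_mem {P : Plk k F} {x : F} (hx : x ∈ Mge P 1) : P.1.valuation x < 1 := by
  by_contra h
  rw [not_lt] at h
  have hx0 : x ≠ 0 := by
    rintro rfl
    rw [map_zero] at h
    exact absurd h (not_le.mpr zero_lt_one)
  have h1 : x⁻¹ ∈ P.1 := by
    rw [← P.1.valuation_le_one_iff, map_inv₀]
    exact inv_le_one_of_one_le₀ h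
  rcases (mem_iff_ord P x⁻¹).mp h1 with h2 | h2
  · exact inv_ne_zero hx0 h2
  · rw [ord_inv] at h2
    rcases mem_Mge.1 hx with h3 | h3
    · exact hx0 h3
    · omega

/-- separating elements -/
theorem exists_sep_elt {T : F} (hT : ∀ a : k, T ≠ algebraMap k F a) (P : Plk k F)
    (hP : T ∉ P.1) : ∃ (e : F) (Q : k[X]) (R : k[X][X]),
      P.1.valuation (e - 1) < 1 ∧ (∀ P' : Plk k F, T ∉ P'.1 → P' ≠ P → P'.1.valuation e < 1) ∧
      Q.coeff 0 = 1 ∧ R.Monic ∧
      eval₂ (aeval T⁻¹ : k[X] →ₐ[k] F).toRingHom (aeval T⁻¹ Q * (T * (e ^ 2 - e))) R = 0 := by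
  classical
  have hT0 : T ≠ 0 := fun h => hT 0 (by rw [h, map_zero])
  let S : Finset (Plk k F) := (dv_finite (k := k) hT0).toFinset
  have hS : ∀ P' : Plk k F, T ∉ P'.1 → P' ∈ S := by
    intro P' h
    rw [Set.Finite.mem_toFinset]
    intro h1
    exact h ((mem_iff_ord P' T).mpr (Or.inr h1.ge))
  let M : ℤ := ∑ P' ∈ S, |ord P' T|
  have hM : ∀ P' ∈ S, |ord P' T| ≤ M := fun P' hP' =>
    Finset.single_le_sum (f := fun P' => |ord P' T|) (fun _ _ => abs_nonneg _) hP'
  have hM0 : 0 ≤ M := Finset.sum_nonneg fun _ _ => abs_nonneg _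
  obtain ⟨e, he1, he2⟩ := CAppr_one P (S.erase P) (Finset.notMem_erase P S) (M + 1)
  have hcase : ∀ P' ∈ S, P' ≠ P → e ∈ Mge P' (M + 1) := fun P' h1 h2 =>
    he2 P' (Finset.mem_erase.2 ⟨h2, h1⟩)
  obtain ⟨Q, R, hQ, hR, hQR⟩ := exists_integral_mul hT (b := T * (e ^ 2 - e)) (by
    intro P' hP'
    have h1 : T ∈ Mge P' (-M) :=
      mem_Mge.2 (Or.inr (neg_le_of_abs_le (hM P' (hS P' hP'))))
    have h2 : e ^ 2 - e ∈ Mge P' (M + 1) := by
      by_cases h : P' = P
      · subst h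
        have h3 : e ^ 2 - e = (e - 1) * ((e - 1) + 1) := by ring
        have h4 : (e - 1) + 1 ∈ Mge P' 0 := by
          refine (Mge P' 0).add_mem (Mge_mono P' (by omega) he1) ?_
          exact mem_Mge.2 (Or.inr (by rw [ord_one]))
        have h5 := mul_mem_Mge he1 h4
        rw [h3]
        rwa [add_zero] at h5
      · have h3 : e ^ 2 - e = e * (e - 1) := by ring
        have h6 := hcase P' (hS P' hP') h
        have h4 : e - 1 ∈ Mge P' 0 := by
          refine (Mge P' 0).sub_mem (Mge_mono P' (by omega) h6) ?_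
          exact mem_Mge.2 (Or.inr (by rw [ord_one]))
        have h5 := mul_mem_Mge h6 h4
        rw [h3]
        rwa [add_zero] at h5
    have h3 := mul_mem_Mge h1 h2
    rw [mem_iff_ord]
    rcases mem_Mge.1 h3 with h4 | h4
    · exact Or.inl h4
    · exact Or.inr (by omega))
  refine ⟨e, Q, R, ?_, ?_, hQ, hR, hQR⟩
  · exact val_lt_one_of_mem (Mge_mono P (by omega) he1)
  · intro P' h1 h2
    exact val_lt_one_of_mem (Mge_mono P' (by omega) (hcase P' (hS P' h1) h2))

end P025H444
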