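import Mathlib.RingTheory.AdjoinRoot
import Mathlib.RingTheory.IntegralClosure.IsIntegral.Basic
import Mathlib.RingTheory.LocalRing.ResidueField.Basic
import Mathlib.RingTheory.Valuation.ValuationSubring

/-!
P025, A-END, tree side (helper444), file 2 of (2e): quadratic Hensel lemma in a finite free algebra
over a `π`-adically complete ring.
-/

set_option linter.unusedSectionVars false

open Polynomial

namespace P025H444

/-- `π`-adically complete and separated -/
structure PiC (R : Type*) [CommRing R] (π : R) : Prop where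
  sep : ∀ x : R, (∀ n, π ^ n ∣ x) → x = 0
  comp : ∀ u : ℕ → R, (∀ n, π ^ n ∣ u (n + 1) - u n) → ∃ L, ∀ n, π ^ n ∣ L - u n

theorem dvd_iff_repr {R S : Type*} [CommRing R] [CommRing S] [Algebra R S] {ι : Type*} [Fintype ι]
    (b : Module.Basis ι R S) (π : R) (x : S) :
    algebraMap R S π ∣ x ↔ ∀ i, π ∣ b.repr x i := by
  constructor
  · rintro ⟨y, rfl⟩ i
    rw [← Algebra.smul_def, map_smul, Finsupp.smul_apply, smul_eq_mul]
    exact dvd_mul_right _ _
  · intro h
    choose c hc using h
    refine ⟨∑ i, c i • b i, ?_⟩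
    rw [← Algebra.smul_def, Finset.smul_sum]
    conv_lhs => rw [← b.sum_repr x]
    exact Finset.sum_congr rfl fun i _ => by rw [hc i, mul_smul]

theorem PiC.free {R S : Type*} [CommRing R] [CommRing S] [Algebra R S] {ι : Type*} [Fintype ι]
    (b : Module.Basis ι R S) {π : R} (h : PiC R π) : PiC S (algebraMap R S π) where
  sep x hx := by
    have h1 : ∀ i, b.repr x i = 0 := fun i => h.sep _ fun n => by
      have h2 := hx n
      rw [← map_pow, dvd_iff_repr b] at h2
      exact h2 i
    rw [← b.sum_repr x]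
    exact Finset.sum_eq_zero fun i _ => by rw [h1 i, zero_smul]
  comp u hu := by
    have h1 : ∀ i, ∃ L, ∀ n, π ^ n ∣ L - b.repr (u n) i := fun i => h.comp _ fun n => by
      have h2 := hu n
      rw [← map_pow, dvd_iff_repr b] at h2
      have h3 := h2 i
      rwa [map_sub, Finsupp.sub_apply] at h3
    choose L hL using h1
    refine ⟨∑ i, L i • b i, fun n => ?_⟩
    rw [← map_pow, dvd_iff_repr b]
    intro i
    have h4 : b.repr (∑ j, L j • b j) i = L i := by
      classical
      rw [map_sum, Finsupp.finsetSum_apply, Finset.sum_eq_single i]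
      · rw [map_smul, Finsupp.smul_apply, b.repr_self, Finsupp.single_eq_same, smul_eq_mul, mul_one]
      · intro j _ hj
        rw [map_smul, Finsupp.smul_apply, b.repr_self, Finsupp.single_eq_of_ne hj.symm, smul_zero]
      · intro h5
        exact absurd (Finset.mem_univ i) h5
    rw [map_sub, Finsupp.sub_apply, h4]
    exact hL i n

theorem PiC.solve {R : Type*} [CommRing R] {π : R} (h : PiC R π) (y : R) :
    ∃ s : R, s = π * s ^ 2 - y := by
  let u : ℕ → R := fun n => Nat.rec 0 (fun _ s => π * s ^ 2 - y) n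
  have hu : ∀ n, u (n + 1) = π * u n ^ 2 - y := fun n => rfl
  have h1 : ∀ n, π ^ n ∣ u (n + 1) - u n := by
    intro n
    induction n with
    | zero => rw [pow_zero]; exact one_dvd _
    | succ n ih =>
      obtain ⟨c, hc⟩ := ih
      refine ⟨c * (u (n + 1) + u n), ?_⟩
      have h2 : u (n + 1 + 1) - u (n + 1) = π * ((u (n + 1) - u n) * (u (n + 1) + u n)) := by
        rw [hu (n + 1)]
        conv_lhs => rw [hu n]
        rw [hu n]
        ring
      rw [h2, hc, pow_succ]
      ring
  obtain ⟨L, hL⟩ := h.comp u h1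
  refine ⟨L, ?_⟩
  rw [← sub_eq_zero]
  refine h.sep _ fun n => ?_
  have h3 : L - (π * L ^ 2 - y) =
      (L - u n) - (u (n + 1) - u n) - π * ((L - u n) * (L + u n)) := by
    rw [hu n]
    ring
  rw [h3]
  exact dvd_sub (dvd_sub (hL n) (h1 n)) (((hL n).mul_right _).mul_left _)

/-- solving `s = π s² - y` for `y` integral over `R` -/
theorem PiC.solve_integral {R K : Type*} [CommRing R] [Nontrivial R] [Field K] {π : R}
    (h : PiC R π) (φ : R →+* K) {y : K} {χ : R[X]} (hχ : χ.Monic) (hy : eval₂ φ y χ = 0) :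
    ∃ s : K, φ.IsIntegralElem s ∧ s = φ π * s ^ 2 - y := by
  let S := AdjoinRoot χ
  let B := AdjoinRoot.powerBasis' hχ
  have hS : PiC S (algebraMap R S π) := h.free B.basis
  obtain ⟨s, hs⟩ := hS.solve (AdjoinRoot.root χ)
  let ψ : S →+* K := AdjoinRoot.lift φ y hy
  have hψ : ∀ r : R, ψ (algebraMap R S r) = φ r := fun r => AdjoinRoot.lift_of hy
  refine ⟨ψ s, ?_, ?_⟩
  · have : Module.Finite R S := B.finite
    obtain ⟨p, hp, hps⟩ := Algebra.IsIntegral.isIntegral (R := R) s
    refine ⟨p, hp, ?_⟩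
    have h1 : φ = ψ.comp (algebraMap R S) := RingHom.ext fun r => (hψ r).symm
    rw [h1, ← hom_eval₂, hps, map_zero]
  · conv_lhs => rw [hs]
    rw [map_sub, map_mul, map_pow, hψ]
    congr 1
    exact AdjoinRoot.lift_root hy

/-- the two alternatives -/
theorem PiC.dichotomy {R K : Type*} [CommRing R] [Nontrivial R] [Field K] {π : R}
    (h : PiC R π) (φ : R →+* K) {y e : K} {χ : R[X]} (hχ : χ.Monic) (hy : eval₂ φ y χ = 0)
    (he : e ^ 2 - e = φ π * y) :
    ∃ s : K, φ.IsIntegralElem s ∧ (e = φ π * s ∨ e = 1 - φ π * s) := by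
  obtain ⟨s, hs1, hs2⟩ := h.solve_integral φ hχ hy
  refine ⟨s, hs1, ?_⟩
  have h1 : (e - φ π * s) * (e - (1 - φ π * s)) = 0 := by
    linear_combination he + φ π * hs2
  rcases mul_eq_zero.mp h1 with h2 | h2
  · exact Or.inl (sub_eq_zero.mp h2)
  · exact Or.inr (sub_eq_zero.mp h2)

end P025H444
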