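import Vale.Agent.P025.R2.H373.Gauss4
import Vale.Agent.P025.R2.H444.ContC
import Mathlib.RingTheory.Polynomial.Subring
import Mathlib.RingTheory.Polynomial.ScaleRoots

/-!
P025, A-END, tree side (helper444), file 3 of (2e): the closed unit ball of `A2`, and the
impossibility of `e = 1`, `e = 0` at two places of the same homomorphism of `A2`.
-/

set_option linter.unusedSectionVars false

open Polynomial P025H373 Filter Topology

universe u

namespace P025H444

variable {C : Type u} [NontriviallyNormedField C] [IsUltrametricDist C] [CompleteSpace C]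
  [IsAlgClosed C]

variable (C) in
/-- closed unit ball of `A2` -/
noncomputable def Rb : Subring (A2 C) where
  carrier := {a | ‖(a : F0 C)‖ ≤ 1}
  mul_mem' {a b} ha hb := by
    change ‖(a : F0 C) * (b : F0 C)‖ ≤ 1
    rw [norm_mul]
    exact mul_le_one₀ ha (norm_nonneg _) hb
  one_mem' := by
    change ‖(1 : F0 C)‖ ≤ 1
    rw [norm_one]
  add_mem' {a b} ha hb := by
    change ‖(a : F0 C) + (b : F0 C)‖ ≤ 1
    exact (IsUltrametricDist.norm_add_le_max _ _).trans (max_le ha hb)
  zero_mem' := by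
    change ‖(0 : F0 C)‖ ≤ 1
    rw [norm_zero]
    exact zero_le_one
  neg_mem' {a} ha := by
    change ‖-(a : F0 C)‖ ≤ 1
    rw [norm_neg]
    exact ha

theorem mem_Rb (a : A2 C) : a ∈ Rb C ↔ ‖(a : F0 C)‖ ≤ 1 := Iff.rfl

/-- constants of norm `≤ 1` -/
noncomputable def rc (π : C) (hπ : ‖π‖ ≤ 1) : Rb C :=
  ⟨algebraMap C (A2 C) π, by
    rw [mem_Rb]
    change ‖algebraMap C (F0 C) π‖ ≤ 1
    rwa [norm_algebraMap_C]⟩

theorem coe_rc (π : C) (hπ : ‖π‖ ≤ 1) : (((rc π hπ : Rb C) : A2 C) : F0 C) =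
    algebraMap C (F0 C) π := rfl

theorem dvd_rc {π : C} (h0 : π ≠ 0) (hπ : ‖π‖ ≤ 1) (n : ℕ) (x : Rb C) :
    rc π hπ ^ n ∣ x ↔ ‖((x : A2 C) : F0 C)‖ ≤ ‖π‖ ^ n := by
  constructor
  · rintro ⟨y, rfl⟩
    change ‖algebraMap C (F0 C) π ^ n * ((y : A2 C) : F0 C)‖ ≤ _
    rw [norm_mul, norm_pow, norm_algebraMap_C]
    exact mul_le_of_le_one_right (pow_nonneg (norm_nonneg _) _) y.2
  · intro h
    refine ⟨⟨algebraMap C (A2 C) (π ^ n)⁻¹ * (x : A2 C), ?_⟩, ?_⟩
    · rw [mem_Rb]
      change ‖algebraMap C (F0 C) (π ^ n)⁻¹ * ((x : A2 C) : F0 C)‖ ≤ 1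
      rw [norm_mul, norm_algebraMap_C, norm_inv, norm_pow]
      have h1 : 0 < ‖π‖ ^ n := pow_pos (norm_pos_iff.mpr h0) n
      rw [inv_mul_le_iff₀ h1, mul_one]
      exact h
    · apply Subtype.ext
      apply Subtype.ext
      change ((x : A2 C) : F0 C) = algebraMap C (F0 C) π ^ n *
        (algebraMap C (F0 C) (π ^ n)⁻¹ * ((x : A2 C) : F0 C))
      rw [← mul_assoc, ← map_pow, ← map_mul, mul_inv_cancel₀ (pow_ne_zero n h0), map_one, one_mul]

theorem piC_Rb {π : C} (h0 : π ≠ 0) (hπ : ‖π‖ < 1) : PiC (Rb C) (rc π hπ.le) where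
  sep x hx := by
    apply Subtype.ext
    apply Subtype.ext
    change ((x : A2 C) : F0 C) = 0
    rw [← norm_le_zero_iff]
    refine ge_of_tendsto' (tendsto_pow_atTop_nhds_zero_of_lt_one (norm_nonneg π) hπ) fun n => ?_
    exact (dvd_rc h0 hπ.le n x).mp (hx n)
  comp u hu := by
    let v : ℕ → F0 C := fun n => ((u n : A2 C) : F0 C)
    have h1 : ∀ n, ‖v (n + 1) - v n‖ ≤ ‖π‖ ^ n := fun n => (dvd_rc h0 hπ.le n _).mp (hu n)
    have h2 : CauchySeq v := by
      refine cauchySeq_of_le_geometric ‖π‖ 1 hπ fun n => ?_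
      rw [dist_comm, dist_eq_norm, one_mul]
      exact h1 n
    obtain ⟨L, hL⟩ := cauchySeq_tendsto_of_complete h2
    have hL2 : L ∈ A2 C := isClosed_A2.mem_of_tendsto hL (Eventually.of_forall fun n =>
      (u n : A2 C).2)
    have h3 : ∀ n m, n ≤ m → ‖v m - v n‖ ≤ ‖π‖ ^ n := by
      intro n m hnm
      induction m, hnm using Nat.le_induction with
      | base => rw [sub_self, norm_zero]; exact pow_nonneg (norm_nonneg _) _
      | succ m hm ih =>
        have h4 : v (m + 1) - v n = (v (m + 1) - v m) + (v m - v n) := by ring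
        rw [h4]
        refine (IsUltrametricDist.norm_add_le_max _ _).trans (max_le ?_ ih)
        exact (h1 m).trans (pow_le_pow_of_le_one (norm_nonneg _) hπ.le hm)
    have h5 : ∀ n, ‖L - v n‖ ≤ ‖π‖ ^ n := by
      intro n
      have h6 : Tendsto (fun m => ‖v m - v n‖) atTop (𝓝 ‖L - v n‖) :=
        ((hL.sub_const (v n))).norm
      refine le_of_tendsto h6 ?_
      filter_upwards [eventually_ge_atTop n] with m hm
      exact h3 n m hm
    have hL1 : ‖L‖ ≤ 1 := by
      have h7 : L = (L - v 0) + v 0 := by ring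
      rw [h7]
      refine (IsUltrametricDist.norm_add_le_max _ _).trans (max_le ?_ (u 0).2)
      have := h5 0
      rwa [pow_zero] at this
    refine ⟨⟨⟨L, hL2⟩, hL1⟩, fun n => ?_⟩
    rw [dvd_rc h0]
    exact h5 n

/-- roots of monic polynomials over the unit ball -/
theorem norm_root_le {q : C[X]} (hq : q.Monic) (h : ∀ i, ‖q.coeff i‖ ≤ 1) {x : C}
    (hx : q.eval x = 0) : ‖x‖ ≤ 1 := by
  by_contra hcon
  rw [not_le] at hcon
  set n := q.natDegree with hn
  have h1 : x ^ n = -∑ i ∈ Finset.range n, q.coeff i * x ^ i := by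
    rw [eval_eq_sum_range, ← hn, Finset.sum_range_succ, hn, hq.coeff_natDegree, ← hn,
      one_mul] at hx
    linear_combination hx
  rcases Nat.eq_zero_or_pos n with h0 | hpos
  · rw [h0, pow_zero, Finset.range_zero, Finset.sum_empty, neg_zero] at h1
    exact one_ne_zero h1
  · have h2 : ‖x ^ n‖ ≤ ‖x‖ ^ (n - 1) := by
      rw [h1, norm_neg]
      refine IsUltrametricDist.norm_sum_le_of_forall_le_of_nonneg
        (pow_nonneg (norm_nonneg _) _) fun i hi => ?_
      rw [Finset.mem_range] at hi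
      rw [norm_mul, norm_pow]
      calc ‖q.coeff i‖ * ‖x‖ ^ i ≤ 1 * ‖x‖ ^ (n - 1) :=
            mul_le_mul (h i) (pow_le_pow_right₀ hcon.le (by omega))
              (pow_nonneg (norm_nonneg _) _) zero_le_one
        _ = ‖x‖ ^ (n - 1) := one_mul _
    rw [norm_pow] at h2
    exact absurd h2 (not_le.mpr (pow_lt_pow_right₀ hcon (by omega)))

variable (C) in
/-- `1 / t` -/
noncomputable def it : A2 C := ⟨(tt C)⁻¹, inv_tt_mem_A2⟩

variable {K : Type*} [Field K]

/-- an element integral over the unit ball of `A2` is not `π⁻¹` at a place at infinity -/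
theorem not_one (f : A2 C →+* K) (O : ValuationSubring K) (h1 : ∀ a, f a ∈ O)
    (h2 : O.valuation (f (it C)) < 1) {π : C} (h0 : π ≠ 0) (hπ : ‖π‖ < 1) {s : K}
    (hs : (f.comp (Rb C).subtype).IsIntegralElem s) :
    ¬ O.valuation (f (algebraMap C (A2 C) π) * s - 1) < 1 := by
  intro hcon
  obtain ⟨p, hp, hps⟩ := hs
  let fO : A2 C →+* O := f.codRestrict O.toSubring h1
  let ρ : O →+* IsLocalRing.ResidueField O := IsLocalRing.residue O
  have hρ : ∀ x : O, ρ x = 0 ↔ O.valuation (x : K) < 1 := by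
    intro x
    rw [IsLocalRing.residue_eq_zero_iff, ValuationSubring.valuation_lt_one_iff]
  let κ : C →+* IsLocalRing.ResidueField O := (ρ.comp fO).comp (algebraMap C (A2 C))
  have hκ : ρ.comp fO = κ.comp (evInf C).toRingHom := by
    refine RingHom.ext fun a => ?_
    have h3 : a = algebraMap C (A2 C) (evInf C a) + it C *
        ⟨tt C * ((a : F0 C) - algebraMap C (F0 C) (evInf C a)), evInf_spec a⟩ := by
      apply Subtype.ext
      change (a : F0 C) = algebraMap C (F0 C) (evInf C a) + (tt C)⁻¹ *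
        (tt C * ((a : F0 C) - algebraMap C (F0 C) (evInf C a)))
      rw [← mul_assoc, inv_mul_cancel₀ tt_ne_zero, one_mul]
      ring
    conv_lhs => rw [h3]
    rw [map_add, map_mul]
    have h4 : (ρ.comp fO) (it C) = 0 := (hρ (fO (it C))).mpr h2
    rw [h4, zero_mul, add_zero]
    rfl
  have hsO : s ∈ O := by
    have h5 : IsIntegral O s := by
      refine ⟨p.map (fO.comp (Rb C).subtype), hp.map _, ?_⟩
      rw [eval₂_map]
      exact hps
    obtain ⟨y, hy⟩ := IsIntegrallyClosed.isIntegral_iff.mp h5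
    rw [← hy]
    exact y.2
  have h6 : eval₂ (fO.comp (Rb C).subtype) (⟨s, hsO⟩ : O) p = 0 := by
    apply O.subtype_injective
    rw [map_zero, hom_eval₂]
    exact hps
  have h7 := congrArg ρ h6
  rw [map_zero, hom_eval₂, ← RingHom.comp_assoc, hκ] at h7
  have h8 : κ π * ρ ⟨s, hsO⟩ = 1 := by
    have h9 : ρ (fO (algebraMap C (A2 C) π) * ⟨s, hsO⟩ - 1) = 0 := (hρ _).mpr hcon
    rw [map_sub, map_mul, map_one, sub_eq_zero] at h9
    exact h9
  have h10 : ρ ⟨s, hsO⟩ = κ π⁻¹ := by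
    rw [map_inv₀]
    exact eq_inv_of_mul_eq_one_right h8
  rw [h10, RingHom.comp_assoc, ← hom_eval₂, map_eq_zero] at h7
  have h11 := norm_root_le (C := C) (q := p.map ((evInf C).toRingHom.comp (Rb C).subtype))
    (hp.map _) (fun i => by
      rw [coeff_map]
      exact (norm_evInf_le _).trans (p.coeff i).2) (x := π⁻¹) (by
      rw [eval_map]
      exact h7)
  rw [norm_inv] at h11
  exact absurd h11 (not_le.mpr ((one_lt_inv₀ (norm_pos_iff.mpr h0)).mpr hπ))

/-- no separation of two places of a homomorphism by small idempotents -/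
theorem no_sep (f : A2 C →+* K) (O O' : ValuationSubring K) (h1 : ∀ a, f a ∈ O)
    (h1' : ∀ a, f a ∈ O') (h2 : O.valuation (f (it C)) < 1) (h2' : O'.valuation (f (it C)) < 1)
    {π : C} (h0 : π ≠ 0) (hπ : ‖π‖ < 1) {y e : K} {χ : (Rb C)[X]} (hχ : χ.Monic)
    (hy : eval₂ (f.comp (Rb C).subtype) y χ = 0)
    (he : e ^ 2 - e = f (algebraMap C (A2 C) π) * y)
    (h3 : O.valuation (e - 1) < 1) (h4 : O'.valuation e < 1) : False := by
  obtain ⟨s, hs, h | h⟩ := (piC_Rb h0 hπ).dichotomy (f.comp (Rb C).subtype) hχ hy he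
  · refine not_one f O h1 h2 h0 hπ hs ?_
    have h5 : e = f (algebraMap C (A2 C) π) * s := h
    rw [← h5]
    exact h3
  · refine not_one f O' h1' h2' h0 hπ hs ?_
    have h5 : e = 1 - f (algebraMap C (A2 C) π) * s := h
    have h6 : f (algebraMap C (A2 C) π) * s - 1 = -e := by rw [h5]; ring
    rw [h6, Valuation.map_neg]
    exact h4

end P025H444
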