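import Vale.Agent.P025.R2.H444.ContD

/-!
P025, A-END, tree side (helper444), file 4 of (2e): for large `c` the integral equation is small.
-/

set_option linter.unusedSectionVars false

open Polynomial P025H373

universe u

namespace P025H444

variable {C : Type u} [NontriviallyNormedField C] [IsUltrametricDist C] [CompleteSpace C]
  [IsAlgClosed C]

theorem norm_aeval_le (w : A2 C) (hw : ‖(w : F0 C)‖ ≤ 1) (q : C[X]) :
    ‖((aeval w q : A2 C) : F0 C)‖ ≤ gp q := by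
  have h1 : ((aeval w q : A2 C) : F0 C) = aeval (w : F0 C) q :=
    (aeval_algHom_apply (A2 C).val w q).symm
  rw [h1, aeval_eq_sum_range]
  refine IsUltrametricDist.norm_sum_le_of_forall_le_of_nonneg (gp_nonneg q) fun i _ => ?_
  rw [Algebra.smul_def, norm_mul, norm_algebraMap_C, norm_pow]
  calc ‖q.coeff i‖ * ‖(w : F0 C)‖ ^ i ≤ gp q * 1 :=
        mul_le_mul (norm_coeff_le q i) (pow_le_one₀ (norm_nonneg _) hw)
          (pow_nonneg (norm_nonneg _) _) (gp_nonneg q)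
    _ = gp q := mul_one _

theorem norm_aeval_sub_le (w : A2 C) (hw : ‖(w : F0 C)‖ ≤ 1) (q : C[X]) :
    ‖((aeval w q : A2 C) : F0 C) - algebraMap C (F0 C) (q.coeff 0)‖ ≤ ‖(w : F0 C)‖ * gp q := by
  have h1 : ((aeval w q : A2 C) : F0 C) - algebraMap C (F0 C) (q.coeff 0) =
      ((aeval w q.divX : A2 C) : F0 C) * (w : F0 C) := by
    conv_lhs => rw [← divX_mul_X_add q]
    rw [map_add, map_mul, aeval_X, aeval_C]
    rw [coeff_add, coeff_mul_X_zero, coeff_C_zero, zero_add]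
    change ((aeval w q.divX : A2 C) : F0 C) * (w : F0 C) + algebraMap C (F0 C) (q.coeff 0) -
      algebraMap C (F0 C) (q.coeff 0) = _
    rw [add_sub_cancel_right]
  rw [h1, norm_mul, mul_comm]
  refine mul_le_mul_of_nonneg_left ((norm_aeval_le w hw _).trans ?_) (norm_nonneg _)
  rw [gp_le_iff]
  intro i
  rw [coeff_divX]
  exact norm_coeff_le q _

variable {kb : Type*} [Field kb] [Algebra kb C]

variable (C) in
/-- bound for `Q` -/
noncomputable def mQ (Q : kb[X]) : ℝ := gp (Q.map (algebraMap kb C))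

variable (C) in
/-- bound for `P` -/
noncomputable def mP (P : kb[X][X]) : ℝ := ∑ i ∈ Finset.range (P.natDegree + 1), mQ C (P.coeff i)

theorem mQ_nonneg (Q : kb[X]) : 0 ≤ mQ C Q := gp_nonneg _

theorem mP_nonneg (P : kb[X][X]) : 0 ≤ mP C P := Finset.sum_nonneg fun _ _ => mQ_nonneg _

theorem mQ_le_mP (P : kb[X][X]) {i : ℕ} (hi : i ≤ P.natDegree) : mQ C (P.coeff i) ≤ mP C P :=
  Finset.single_le_sum (f := fun i => mQ C (P.coeff i)) (fun _ _ => mQ_nonneg _)
    (Finset.mem_range.mpr (Nat.lt_succ_of_le hi))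

/-- **the two places are not separated by `e`** -/
theorem no_sep_large {Q : kb[X]} {P : kb[X][X]} (hQ : Q.coeff 0 = 1) (hP : P.Monic) {π : C}
    (h0 : π ≠ 0) (hπ : ‖π‖ < 1) {c : kb}
    (hc : 1 + mQ C Q + mP C P < ‖π‖ * ‖algebraMap kb C c‖)
    {N K : Type*} [Field N] [Field K] [Algebra kb N] {T T' e : N}
    (hT : T' * algebraMap kb N c = T)
    (he : eval₂ (aeval T⁻¹ : kb[X] →ₐ[kb] N).toRingHom (aeval T⁻¹ Q * (T * (e ^ 2 - e))) P = 0)
    (f : A2 C →+* K) (g : N →+* K)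
    (hfg : ∀ a : kb, g (algebraMap kb N a) = f (algebraMap C (A2 C) (algebraMap kb C a)))
    (hgT : g T' * f (it C) = 1) (O O' : ValuationSubring K) (h1 : ∀ a, f a ∈ O)
    (h1' : ∀ a, f a ∈ O') (h2 : O.valuation (f (it C)) < 1) (h2' : O'.valuation (f (it C)) < 1)
    (h3 : O.valuation (g e - 1) < 1) (h4 : O'.valuation (g e) < 1) : False := by
  have hQ0 : 0 ≤ mQ C Q := mQ_nonneg Q
  have hP0 : 0 ≤ mP C P := mP_nonneg P
  set c' : C := algebraMap kb C c with hc'
  have hπ' : 0 < ‖π‖ := norm_pos_iff.mpr h0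
  have hc1 : 1 + mQ C Q + mP C P < ‖c'‖ := by
    refine hc.trans_le ?_
    exact mul_le_of_le_one_left (norm_nonneg _) hπ.le
  have hc0 : 0 < ‖c'‖ := by linarith
  have hc0' : c' ≠ 0 := norm_pos_iff.mp hc0
  let w : A2 C := algebraMap C (A2 C) c'⁻¹ * it C
  have hwn : ‖(w : F0 C)‖ = ‖c'‖⁻¹ := by
    change ‖algebraMap C (F0 C) c'⁻¹ * (tt C)⁻¹‖ = _
    rw [norm_mul, norm_algebraMap_C, norm_inv, norm_inv, norm_tt, inv_one, mul_one]
  have hw1 : ‖(w : F0 C)‖ ≤ 1 := by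
    rw [hwn]
    exact inv_le_one_of_one_le₀ (by linarith)
  let ev : kb[X] →+* A2 C := (aeval w : C[X] →ₐ[C] A2 C).toRingHom.comp
    (mapRingHom (algebraMap kb C))
  have hev : ∀ q : kb[X], ev q = aeval w (q.map (algebraMap kb C)) := fun _ => rfl
  have hevn : ∀ q : kb[X], ‖(ev q : F0 C)‖ ≤ mQ C q := fun q => norm_aeval_le w hw1 _
  have hfw : f w = g T⁻¹ := by
    have h5 : f w = f (algebraMap C (A2 C) c'⁻¹) * f (it C) := map_mul f _ _
    have h6 : f (algebraMap C (A2 C) c'⁻¹) * g (algebraMap kb N c) = 1 := by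
      rw [hfg, ← map_mul, ← map_mul, inv_mul_cancel₀ hc0', map_one, map_one]
    rw [map_inv₀, h5]
    refine eq_inv_of_mul_eq_one_left ?_
    rw [← hT, map_mul]
    linear_combination hgT + (g T' * f (it C)) * h6
  have hcomp : f.comp ev = g.comp (aeval T⁻¹ : kb[X] →ₐ[kb] N).toRingHom := by
    refine Polynomial.ringHom_ext (fun a => ?_) ?_
    · change f (aeval w ((Polynomial.C a).map (algebraMap kb C))) = g (aeval T⁻¹ (Polynomial.C a))
      rw [Polynomial.map_C, aeval_C, aeval_C, hfg]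
    · change f (aeval w ((X : kb[X]).map (algebraMap kb C))) = g (aeval T⁻¹ (X : kb[X]))
      rw [Polynomial.map_X, aeval_X, aeval_X, hfw]
  have hT0 : T ≠ 0 := by
    rintro rfl
    have h5 : g T' = 0 := by
      have h6 : algebraMap kb N c ≠ 0 := by
        intro h7
        have h8 := hfg c
        rw [h7, map_zero, ← hc'] at h8
        have h9 : (f.comp (algebraMap C (A2 C))) c' = 0 := h8.symm
        rw [map_eq_zero] at h9
        exact hc0' h9
      rw [(mul_eq_zero.mp hT).resolve_right h6, map_zero]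
    rw [h5, zero_mul] at hgT
    exact zero_ne_one hgT
  -- the inverse of `Q`
  have hQ1 : ‖(ev Q : F0 C) - 1‖ < 1 := by
    have h5 := norm_aeval_sub_le w hw1 (Q.map (algebraMap kb C))
    rw [coeff_map, hQ, map_one, map_one, ← hev] at h5
    refine h5.trans_lt ?_
    rw [hwn]
    change ‖c'‖⁻¹ * mQ C Q < 1
    rw [inv_mul_lt_iff₀ hc0, mul_one]
    linarith
  have hinv := exists_inv_A2 (h := (ev Q : F0 C) - 1) (sub_mem (ev Q).2 (one_mem _)) hQ1
  rw [add_sub_cancel] at hinv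
  let v : A2 C := ⟨(ev Q : F0 C)⁻¹, hinv.1⟩
  have hQne : (ev Q : F0 C) ≠ 0 := by
    intro h5
    rw [h5, zero_sub, norm_neg, norm_one] at hQ1
    exact lt_irrefl _ hQ1
  have hvQ : v * ev Q = 1 := Subtype.ext (inv_mul_cancel₀ hQne)
  have hvn : ‖(v : F0 C)‖ ≤ 1 := by
    have h5 : (v : F0 C) = ((v : F0 C) - 1) + 1 := by ring
    rw [h5]
    refine (IsUltrametricDist.norm_add_le_max _ _).trans (max_le ?_ norm_one.le)
    exact hinv.2.trans hQ1.le
  -- the scaling factor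
  let ω : A2 C := algebraMap C (A2 C) π⁻¹ * (w * v)
  have hωn : ‖(ω : F0 C)‖ ≤ (‖π‖ * ‖c'‖)⁻¹ := by
    change ‖algebraMap C (F0 C) π⁻¹ * ((w : F0 C) * (v : F0 C))‖ ≤ _
    rw [norm_mul, norm_mul, norm_algebraMap_C, norm_inv, hwn, mul_inv]
    exact mul_le_mul_of_nonneg_left (mul_le_of_le_one_right (inv_nonneg.mpr hc0.le) hvn)
      (inv_nonneg.mpr hπ'.le)
  have hD : 0 < ‖π‖ * ‖c'‖ := mul_pos hπ' hc0
  have hω1 : ‖(ω : F0 C)‖ ≤ 1 := hωn.trans (inv_le_one_of_one_le₀ (by linarith))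
  have hωM : ‖(ω : F0 C)‖ * mP C P ≤ 1 := by
    calc ‖(ω : F0 C)‖ * mP C P ≤ (‖π‖ * ‖c'‖)⁻¹ * mP C P :=
          mul_le_mul_of_nonneg_right hωn hP0
      _ ≤ 1 := by
          rw [inv_mul_le_iff₀ hD, mul_one]
          linarith
  let χ0 : (A2 C)[X] := (P.map ev).scaleRoots ω
  have hχ0 : χ0.Monic := (monic_scaleRoots_iff ω).mpr (hP.map ev)
  have hcoef : ∀ i, χ0.coeff i ∈ Rb C := by
    intro i
    rw [coeff_scaleRoots, hP.natDegree_map, coeff_map]
    rcases lt_trichotomy i P.natDegree with hi | hi | hi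
    · rw [mem_Rb]
      change ‖(ev (P.coeff i) : F0 C) * (ω : F0 C) ^ (P.natDegree - i)‖ ≤ 1
      rw [norm_mul, norm_pow]
      have h5 : ‖(ω : F0 C)‖ ^ (P.natDegree - i) ≤ ‖(ω : F0 C)‖ :=
        pow_le_of_le_one (norm_nonneg _) hω1 (by omega)
      calc ‖(ev (P.coeff i) : F0 C)‖ * ‖(ω : F0 C)‖ ^ (P.natDegree - i)
          ≤ mP C P * ‖(ω : F0 C)‖ :=
            mul_le_mul ((hevn _).trans (mQ_le_mP P hi.le)) h5
              (pow_nonneg (norm_nonneg _) _) hP0
        _ = ‖(ω : F0 C)‖ * mP C P := mul_comm _ _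
        _ ≤ 1 := hωM
    · rw [hi, hP.coeff_natDegree, map_one, tsub_self, pow_zero, mul_one]
      exact one_mem _
    · rw [coeff_eq_zero_of_natDegree_lt hi, map_zero, zero_mul]
      exact zero_mem _
  have hsub : (↑χ0.coeffs : Set (A2 C)) ⊆ Rb C := by
    intro a ha
    rw [Finset.mem_coe, mem_coeffs_iff] at ha
    obtain ⟨n, -, rfl⟩ := ha
    exact hcoef n
  have heq : eval₂ f (f (ev Q) * g (T * (e ^ 2 - e))) (P.map ev) = 0 := by
    have h5 := congrArg g he
    rw [map_zero, hom_eval₂, ← hcomp, map_mul] at h5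
    have h6 : g (aeval T⁻¹ Q) = f (ev Q) := (RingHom.congr_fun hcomp Q).symm
    rw [h6] at h5
    rw [eval₂_map]
    exact h5
  have heq2 := scaleRoots_eval₂_eq_zero f (s := ω) heq
  refine no_sep f O O' h1 h1' h2 h2' h0 hπ (χ := χ0.toSubring (Rb C) hsub)
    (y := f ω * (f (ev Q) * g (T * (e ^ 2 - e)))) (e := g e) ?_ ?_ ?_ h3 h4
  · exact (monic_toSubring _ _ hsub).mpr hχ0
  · rw [← eval₂_map, map_toSubring]
    exact heq2
  · have h5 : f ω * f (ev Q) = f (algebraMap C (A2 C) π⁻¹) * f w := by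
      rw [← map_mul, ← map_mul]
      congr 1
      change algebraMap C (A2 C) π⁻¹ * (w * v) * ev Q = algebraMap C (A2 C) π⁻¹ * w
      rw [mul_assoc, mul_assoc, hvQ, mul_one]
    have h6 : f (algebraMap C (A2 C) π) * f (algebraMap C (A2 C) π⁻¹) = 1 := by
      rw [← map_mul, ← map_mul, mul_inv_cancel₀ h0, map_one, map_one]
    have h7 : f w * g T = 1 := by
      rw [hfw, ← map_mul, inv_mul_cancel₀ hT0, map_one]
    rw [map_mul g T, map_sub, map_pow]
    have h8 : f (algebraMap C (A2 C) π) * (f ω * (f (ev Q) * (g T * (g e ^ 2 - g e)))) =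
        f (algebraMap C (A2 C) π) * (f ω * f (ev Q)) * (g T * (g e ^ 2 - g e)) := by ring
    rw [h8, h5]
    linear_combination (-(g e ^ 2 - g e)) * (f w * g T) * h6 - (g e ^ 2 - g e) * h7

end P025H444
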