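import Vale.Agent.P025.R2.H444.ContA
import Vale.Agent.P025.R2.H444.ContE
import Vale.Agent.P025.R2.H361.Cont
import Vale.Agent.P025.R2.H833.Uc

/-!
P025, A-END, tree side (helper444), file 5 of (2e): for large `c`, all the places contained in a
`D`-vertex of the tree of `T / c` agree on a finite level.
-/

set_option linter.unusedSectionVars false

attribute [local instance] O19.fr O19.tf O19.pj O19.fl

open TensorProduct P025H373 P025H544 P025H720 P025H361 Vale.Agent.P019P

universe u v w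

namespace P025H444

theorem val_lt_one_iff' {K : Type*} [Field K] (V : ValuationSubring K) (x : K) :
    V.valuation x < 1 ↔ x = 0 ∨ x⁻¹ ∉ V := by
  by_cases hx : x = 0
  · rw [hx, map_zero]
    exact ⟨fun _ => Or.inl rfl, fun _ => zero_lt_one⟩
  · rw [or_iff_right hx, ← V.valuation_le_one_iff, map_inv₀, not_le,
      one_lt_inv₀ (zero_lt_iff.mpr ((_root_.map_ne_zero _).mpr hx))]

theorem val_comap_lt_one {K L : Type*} [Field K] [Field L] (V : ValuationSubring L)
    (φ : K →+* L) (x : K) : (V.comap φ).valuation x < 1 ↔ V.valuation (φ x) < 1 := by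
  rw [val_lt_one_iff', val_lt_one_iff', ValuationSubring.mem_comap, map_inv₀, map_eq_zero]

section Abs

variable {F A M R N : Type*} [Field F] [Field A] [Field M] [Algebra F A]
  [Algebra F M] [CommRing R] [Field N]

theorem iN_eq {j : N →+* M} {x : N} {f : F} (hx : j x = algebraMap F M f) :
    iN F A j x = algebraMap A (A ⊗[F] M) (algebraMap F A f) := by
  rw [iN_apply, hx, Algebra.algebraMap_eq_smul_one (R := F), ← TensorProduct.smul_tmul,
    ← Algebra.algebraMap_eq_smul_one]
  rfl

/-- the data of a place in a point, without the tensor product -/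
theorem C0_data {ι : R →+* A} {j : N →+* M} {T : N} (d : Pt F A M) {φT : F}
    (hT : j T = algebraMap F M φT) {r0 : R} (h0 : algebraMap F A φT * ι r0 = 1) :
    ∃ (f : R →+* d.asIdeal.ResidueField) (g : N →+* d.asIdeal.ResidueField),
      (∀ (x : N) (r : R) (a : F), ι r = algebraMap F A a → j x = algebraMap F M a → g x = f r) ∧
      g T * f r0 = 1 ∧
      ∀ W : ValuationSubring N, C0 ι j T d W → ∃ O : ValuationSubring d.asIdeal.ResidueField,
        (∀ a, f a ∈ O) ∧ O.valuation (f r0) < 1 ∧ O.comap g = W := by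
  let φ : (A ⊗[F] M) →+* d.asIdeal.ResidueField := algebraMap (A ⊗[F] M) d.asIdeal.ResidueField
  let f : R →+* d.asIdeal.ResidueField := φ.comp (iA F M ι)
  let g : N →+* d.asIdeal.ResidueField := φ.comp (iN F A j)
  have hgT : g T * f r0 = 1 := by
    change φ (iN F A j T) * φ (algebraMap A (A ⊗[F] M) (ι r0)) = 1
    rw [iN_eq hT, ← map_mul, ← map_mul, h0, map_one, map_one]
  refine ⟨f, g, ?_, hgT, ?_⟩
  · intro x r a h1 h2
    change φ (iN F A j x) = φ (algebraMap A (A ⊗[F] M) (ι r))
    rw [iN_eq h2, h1]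
  · rintro W ⟨O, hO⟩
    refine ⟨O, hO.mem, ?_, hO.comap⟩
    rw [val_lt_one_iff']
    right
    have h3 : (f r0)⁻¹ = g T := by
      rw [eq_comm]
      exact eq_inv_of_mul_eq_one_left hgT
    rw [h3]
    exact hO.not_mem

end Abs

variable {C : Type u} {kb : Type v} {N : Type w}
  [NontriviallyNormedField C] [IsUltrametricDist C] [CompleteSpace C] [IsAlgClosed C]
  [Field kb] [IsAlgClosed kb] [Field N] [Algebra kb C] [Algebra kb N] [TrdegOne kb N]

/-- the data of a place in a `D`-vertex, without the tensor product -/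
theorem cont_data {T : N} [Fact (Transcendental kb T)] (d : DT C kb N T) :
    ∃ (f : A2 C →+* d.asIdeal.ResidueField) (g : N →+* d.asIdeal.ResidueField),
      (∀ a : kb, g (algebraMap kb N a) = f (algebraMap C (A2 C) (algebraMap kb C a))) ∧
      g T * f (it C) = 1 ∧
      ∀ W : ValuationSubring N, Cont d W → ∃ O : ValuationSubring d.asIdeal.ResidueField,
        (∀ a, f a ∈ O) ∧ O.valuation (f (it C)) < 1 ∧ O.comap g = W := by
  have h2 : algebraMap (RatFunc C) (F2 C) RatFunc.X * a2 C (it C) = 1 :=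
    Subtype.ext (mul_inv_cancel₀ (tt_ne_zero (C := C)))
  obtain ⟨f, g, h3, h4, h5⟩ := C0_data (ι := a2 C) (j := algebraMap N (NCT C kb N T)) (T := T) d
    (φT := RatFunc.X) (Eq.symm (algebraMap_T_X (C := C) (kb := kb) (N := N) (T := T))) h2
  refine ⟨f, g, fun a => ?_, h4, h5⟩
  refine h3 _ _ (algebraMap C (RatFunc C) (algebraMap kb C a)) rfl ?_
  rw [← IsScalarTower.algebraMap_apply kb N (NCT C kb N T),
    IsScalarTower.algebraMap_apply kb C (NCT C kb N T),
    IsScalarTower.algebraMap_apply C (RatFunc C) (NCT C kb N T)]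

/-- two places of the same vertex agree on a level, for large `c` -/
theorem level_eq {L : IntermediateField kb N} [CFF kb L] {T : N} (hTL : T ∈ L)
    (hT : Transcendental kb T) :
    ∃ r : ℝ, ∀ c : kb, r ≤ ‖algebraMap kb C c‖ → ∀ (T' : N) [Fact (Transcendental kb T')],
      T' * algebraMap kb N c = T → ∀ (d : DT C kb N T') (W W' : ValuationSubring N),
      Cont d W → Cont d W' → W.comap (algebraMap L N) = W'.comap (algebraMap L N) := by
  classical
  let TL : L := ⟨T, hTL⟩
  have hTL' : ∀ a : kb, TL ≠ algebraMap kb L a := by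
    intro a ha
    have h1 : T = algebraMap kb N a := congrArg Subtype.val ha
    exact hT (h1 ▸ isAlgebraic_algebraMap a)
  have hT0 : TL ≠ 0 := fun h => hTL' 0 (by rw [h, map_zero])
  obtain ⟨π, hπ0, hπ1⟩ := NormedField.exists_norm_lt_one C
  have hπ0' : π ≠ 0 := norm_pos_iff.mp hπ0
  have hex : ∀ P : Plk kb L, ∃ (e : L) (Q : Polynomial kb) (R : Polynomial (Polynomial kb)),
      TL ∉ P.1 → P.1.valuation (e - 1) < 1 ∧
        (∀ P' : Plk kb L, TL ∉ P'.1 → P' ≠ P → P'.1.valuation e < 1) ∧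
        Q.coeff 0 = 1 ∧ R.Monic ∧
        Polynomial.eval₂ (Polynomial.aeval TL⁻¹ : Polynomial kb →ₐ[kb] L).toRingHom
          (Polynomial.aeval TL⁻¹ Q * (TL * (e ^ 2 - e))) R = 0 := by
    intro P
    by_cases h : TL ∈ P.1
    · exact ⟨0, 0, 0, fun h' => absurd h h'⟩
    · obtain ⟨e, Q, R, h1⟩ := exists_sep_elt hTL' P h
      exact ⟨e, Q, R, fun _ => h1⟩
  choose e Q R heQR using hex
  let S : Finset (Plk kb L) := (dv_finite (k := kb) hT0).toFinset
  have hS : ∀ P : Plk kb L, TL ∉ P.1 → P ∈ S := by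
    intro P h
    rw [Set.Finite.mem_toFinset]
    intro h1
    exact h ((mem_iff_ord P TL).mpr (Or.inr h1.ge))
  let B : ℝ := ∑ P ∈ S, (1 + mQ C (Q P) + mP C (R P))
  have hB : ∀ P ∈ S, 1 + mQ C (Q P) + mP C (R P) ≤ B := fun P hP =>
    Finset.single_le_sum (f := fun P => 1 + mQ C (Q P) + mP C (R P)) (fun P _ => by
      have h1 := mQ_nonneg (C := C) (Q P)
      have h2 := mP_nonneg (C := C) (R P)
      positivity) hP
  refine ⟨‖π‖⁻¹ * (B + 1), ?_⟩
  intro c hc T' _ hT' d W W' hW hW'
  rw [inv_mul_le_iff₀ hπ0] at hc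
  obtain ⟨f, g, hfg, hgT, hO⟩ := cont_data d
  obtain ⟨O, hO1, hO2, hO3⟩ := hO W hW
  obtain ⟨O', hO1', hO2', hO3'⟩ := hO W' hW'
  have hkW : ∀ a : kb, algebraMap kb N a ∈ W := hW.kb_mem
  have hkW' : ∀ a : kb, algebraMap kb N a ∈ W' := hW'.kb_mem
  -- `T` is not in `W`
  have hc0 : algebraMap kb N c ≠ 0 := by
    intro h
    rw [h, mul_zero] at hT'
    exact hT (hT' ▸ isAlgebraic_zero)
  have hTW : ∀ V : ValuationSubring N, (∀ a : kb, algebraMap kb N a ∈ V) → T' ∉ V → T ∉ V := by
    intro V hk hV h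
    apply hV
    have h1 : T' = T * algebraMap kb N c⁻¹ := by
      rw [← hT', map_inv₀, mul_inv_cancel_right₀ hc0]
    rw [h1]
    exact mul_mem h (hk _)
  have hTW1 := hTW W hkW hW.T_not_mem
  have hTW2 := hTW W' hkW' hW'.T_not_mem
  let P : Plk kb L := ⟨W.comap (algebraMap L N), fun a => hkW a, fun h => hTW1 (by
    have h1 : TL ∈ W.comap (algebraMap L N) := by rw [h]; trivial
    exact h1)⟩
  let P' : Plk kb L := ⟨W'.comap (algebraMap L N), fun a => hkW' a, fun h => hTW2 (by
    have h1 : TL ∈ W'.comap (algebraMap L N) := by rw [h]; trivial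
    exact h1)⟩
  by_contra hne
  have hne' : P' ≠ P := fun h => hne (congrArg Subtype.val h).symm
  have hTP : TL ∉ P.1 := hTW1
  have hTP' : TL ∉ P'.1 := hTW2
  obtain ⟨he1, he2, hQ, hR, hE⟩ := heQR P hTP
  have he3 := he2 P' hTP' hne'
  have hE' : Polynomial.eval₂ (Polynomial.aeval T⁻¹ : Polynomial kb →ₐ[kb] N).toRingHom
      (Polynomial.aeval T⁻¹ (Q P) * (T * ((e P : N) ^ 2 - (e P : N)))) (R P) = 0 := by
    have h1 := congrArg (algebraMap L N) hE
    rw [map_zero, Polynomial.hom_eval₂] at h1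
    have h2 : (algebraMap L N).comp (Polynomial.aeval TL⁻¹ : Polynomial kb →ₐ[kb] L).toRingHom =
        (Polynomial.aeval T⁻¹ : Polynomial kb →ₐ[kb] N).toRingHom := by
      refine RingHom.ext fun q => ?_
      change algebraMap L N (Polynomial.aeval TL⁻¹ q) = Polynomial.aeval T⁻¹ q
      rw [← Polynomial.aeval_algebraMap_apply, map_inv₀]
      rfl
    have h3 : algebraMap L N (Polynomial.aeval TL⁻¹ (Q P) * (TL * (e P ^ 2 - e P))) =
        Polynomial.aeval T⁻¹ (Q P) * (T * ((e P : N) ^ 2 - (e P : N))) := by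
      rw [map_mul, ← Polynomial.aeval_algebraMap_apply, map_inv₀]
      rfl
    rw [h2, h3] at h1
    exact h1
  refine no_sep_large hQ hR hπ0' hπ1 (c := c) ?_ hT' hE' f g hfg hgT O O' hO1 hO1' hO2 hO2' ?_ ?_
  · have h1 := hB P (hS P hTP)
    linarith
  · have h1 : (g.comp (algebraMap L N)) (e P - 1) = g (e P : N) - 1 := by
      rw [map_sub, map_one]
      rfl
    rw [← h1, ← val_comap_lt_one, ← ValuationSubring.comap_comap, hO3]
    exact he1
  · have h1 : (g.comp (algebraMap L N)) (e P) = g (e P : N) := rfl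
    rw [← h1, ← val_comap_lt_one, ← ValuationSubring.comap_comap, hO3']
    exact he3

/-- **(2e)** -/
theorem cont_level' (T : N) (hT : Transcendental kb T) (F : Finset N) : ∃ R : ℝ, ∀ c : kb,
      R ≤ ‖algebraMap kb C c‖ → ∀ (T' : N) [Fact (Transcendental kb T')],
      T' * algebraMap kb N c = T → ∀ (d : DT C kb N T') (W W' : ValuationSubring N),
      Cont d W → Cont d W' → ∀ x ∈ IntermediateField.adjoin kb (F : Set N), x ∈ W → x ∈ W' := by
  classical
  let L : IntermediateField kb N := IntermediateField.adjoin kb ((insert T F : Finset N) : Set N)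
  have hTF : T ∈ ((insert T F : Finset N) : Set N) := Finset.mem_coe.2 (Finset.mem_insert_self _ _)
  have halg : ∀ x : N, IsAlgebraic (IntermediateField.adjoin kb {T}) x := by
    intro x
    have h1 := TrdegOne.alg (kb := kb) T x hT
    exact IntermediateField.isAlgebraic_adjoin_iff.mpr h1
  have hcff : CFF kb L := P025H833.cff_adjoin inferInstance hT (Finset.finite_toSet _) hTF
    fun x _ => halg x
  obtain ⟨R, hR⟩ := level_eq (C := C) (L := L) (IntermediateField.subset_adjoin _ _ hTF) hT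
  refine ⟨R, fun c hc T' _ hT' d W W' hW hW' x hx hxW => ?_⟩
  have h1 := hR c hc T' hT' d W W' hW hW'
  have hxL : x ∈ L := by
    refine IntermediateField.adjoin.mono _ _ _ ?_ hx
    rw [Finset.coe_insert]
    exact Set.subset_insert _ _
  have h2 : (⟨x, hxL⟩ : L) ∈ W.comap (algebraMap L N) := hxW
  rw [h1] at h2
  exact h2

/-- (2e), form of `H361/ContSpec.lean` -/
theorem cont_level (T : N) (hT : Transcendental kb T) (S : Finset N) :
    ∃ r : ℝ, ∀ c : kb, r < ‖algebraMap kb C c‖ →
      ∀ [Fact (Transcendental kb (T / algebraMap kb N c))]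
        (d : DT C kb N (T / algebraMap kb N c)) (W W' : ValuationSubring N),
        Cont d W → Cont d W' →
          ∀ x ∈ IntermediateField.adjoin kb (S : Set N), (x ∈ W ↔ x ∈ W') := by
  obtain ⟨r, hr⟩ := cont_level' (C := C) T hT S
  refine ⟨max r 0, ?_⟩
  intro c hc _ d W W' h h' x hx
  have hc0 : algebraMap kb N c ≠ 0 := by
    rw [_root_.map_ne_zero]
    rintro rfl
    rw [map_zero, norm_zero] at hc
    exact absurd hc (not_lt.mpr (le_max_right _ _))
  have h1 : r ≤ ‖algebraMap kb C c‖ := (le_max_left _ _).trans hc.le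
  have h2 : T / algebraMap kb N c * algebraMap kb N c = T := div_mul_cancel₀ T hc0
  exact ⟨hr c h1 _ h2 d W W' h h' x hx, hr c h1 _ h2 d W' W h' h x hx⟩

end P025H444
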