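import Vale.Agent.P025.R2.H361.Cont

/-!
P025, A-END, tree side (helper444): (2d), the relation `Cont` is equivariant.
-/

set_option linter.unusedSectionVars false

open TensorProduct P025H373 P025H544 P025H720 P025H361
open scoped Pointwise

universe u v w

namespace P025H444

section Abs

variable {G : Type*} [Group G] {F A M R N : Type*} [Field F] [Field A] [Field M] [Algebra F A]
  [Algebra F M] [CommRing R] [Field N] [MulSemiringAction G F] [MulSemiringAction G A]
  [MulSemiringAction G M] [MulSemiringAction G N] [Equi G F A] [Equi G F M]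

theorem C0_smul {ι : R →+* A} {j : N →+* M} {T : N} (g : G)
    (hι : ∀ a : R, ∃ a' : R, g⁻¹ • ι a = ι a') (hj : ∀ x : N, g⁻¹ • j x = j (g⁻¹ • x))
    (hT : g⁻¹ • T = T) {d : Pt F A M} {W : ValuationSubring N} (h : C0 ι j T d W) :
    C0 ι j T (g • d) (W.comap (MulSemiringAction.toRingHom G N g⁻¹)) := by
  obtain ⟨O, hO⟩ := h
  let γ : (A ⊗[F] M) →+* (A ⊗[F] M) := actHom F A M g⁻¹
  refine C0_of_hom (φ := (algebraMap (A ⊗[F] M) d.asIdeal.ResidueField).comp γ) (O := O) ?_ ?_
  · intro z
    rw [RingHom.comp_apply, Ideal.algebraMap_residueField_eq_zero]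
    exact Iff.rfl
  · have hN : ∀ x : N, γ (iN F A j x) = iN F A j (g⁻¹ • x) := by
      intro x
      rw [iN_apply, iN_apply]
      change actHom F A M g⁻¹ (1 ⊗ₜ[F] j x) = _
      rw [actHom_tmul, smul_one, hj]
    refine ⟨?_, ?_, ?_⟩
    · intro a
      obtain ⟨a', ha'⟩ := hι a
      have h1 : γ (iA F M ι a) = iA F M ι a' := by
        rw [iA_apply, iA_apply]
        change actHom F A M g⁻¹ (ι a ⊗ₜ[F] 1) = _
        rw [actHom_tmul, smul_one, ha']
      rw [RingHom.comp_apply, h1]
      exact hO.mem _
    · rw [RingHom.comp_apply, hN, hT]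
      exact hO.not_mem
    · rw [← hO.comap]
      apply SetLike.ext
      intro x
      simp only [ValuationSubring.mem_comap, RingHom.comp_apply, hN,
        MulSemiringAction.toRingHom_apply]

end Abs

variable {G : Type*} [Group G] [TopologicalSpace G] [IsTopologicalGroup G] {C : Type u}
  {kb : Type v} {N : Type w}
  [NontriviallyNormedField C] [IsUltrametricDist C] [CompleteSpace C] [IsAlgClosed C] [CharZero C]
  [Field kb] [IsAlgClosed kb] [Field N] [Algebra kb C] [Algebra kb N] [TrdegOne kb N]
  [MulSemiringAction G kb] [MulSemiringAction G C] [MulSemiringAction G N]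
  [NormAct G C] [Equi G kb C] [Equi G kb N]
  {T : N} [Fact (Transcendental kb T)] [FixedT G T]

/-- (2d) -/
theorem cont_smul (g : G) {d : DT C kb N T} {W : ValuationSubring N} (h : Cont d W) :
    Cont (g • d) (W.comap (MulSemiringAction.toRingHom G N g⁻¹)) :=
  C0_smul g (fun a => ⟨⟨g⁻¹ • (a : F0 C), smul_mem_A2 g⁻¹ a.2⟩, rfl⟩)
    (fun x => Equi.smul_algebraMap (G := G) (F := N) g⁻¹ x) (FixedT.fixed (T := T) g⁻¹) h

/-- (2d), pointwise form -/
theorem cont_smul' (g : G) {d : DT C kb N T} {W : ValuationSubring N} (h : Cont d W) :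
    Cont (g • d) (g • W) := by
  have h1 : (g • W : ValuationSubring N) = W.comap (MulSemiringAction.toRingHom G N g⁻¹) := by
    apply SetLike.ext
    intro x
    rw [ValuationSubring.mem_pointwise_smul_iff_inv_smul_mem, ValuationSubring.mem_comap,
      MulSemiringAction.toRingHom_apply]
  rw [h1]
  exact cont_smul g h

end P025H444
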