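import Mathlib

namespace P025H444

section Root

variable {K : Type*} [Field K] (w : AbsoluteValue K ℝ)

theorem abv_sum_le (hw : IsNonarchimedean w) {ι : Type*} (s : Finset ι) (f : ι → K) {B : ℝ}
    (hB : 0 ≤ B) (h : ∀ i ∈ s, w (f i) ≤ B) : w (∑ i ∈ s, f i) ≤ B := by
  classical
  induction s using Finset.induction_on with
  | empty => simpa using hB
  | insert a s ha ih =>
    rw [Finset.sum_insert ha]
    exact (hw _ _).trans (max_le (h _ (Finset.mem_insert_self _ _))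
      (ih fun i hi => h i (Finset.mem_insert_of_mem hi)))

theorem abv_natCast_le_one (hw : IsNonarchimedean w) (n : ℕ) : w (n : K) ≤ 1 := by
  induction n with
  | zero => simp
  | succ n ih =>
    rw [Nat.cast_succ]
    exact (hw _ _).trans (max_le ih (by simp))

/-- a root of unity close to `1` is `1` -/
theorem eq_one_of_pow_eq_one (hw : IsNonarchimedean w) {n : ℕ} {u : K}
    (hu : u ^ n = 1) (h : w (u - 1) < w (n : K)) : u = 1 := by
  by_contra hne
  have hx0 : u - 1 ≠ 0 := sub_ne_zero.mpr hne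
  have hn1 : w (n : K) ≤ 1 := abv_natCast_le_one w hw n
  have hx1 : w (u - 1) ≤ 1 := h.le.trans hn1
  have hu1 : w u ≤ 1 := by
    have e : u = (u - 1) + 1 := by ring
    rw [e]
    exact (hw _ _).trans (max_le hx1 (by simp))
  have hpow : ∀ i : ℕ, w (u ^ i - 1) ≤ w (u - 1) := by
    intro i
    induction i with
    | zero => simp
    | succ i ih =>
      have e : u ^ (i + 1) - 1 = u * (u ^ i - 1) + (u - 1) := by ring
      rw [e]
      refine (hw _ _).trans (max_le ?_ le_rfl)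
      rw [map_mul]
      calc w u * w (u ^ i - 1) ≤ 1 * w (u - 1) :=
            mul_le_mul hu1 ih (apply_nonneg _ _) zero_le_one
        _ = w (u - 1) := one_mul _
  have hgeom : (∑ i ∈ Finset.range n, u ^ i) * (u - 1) = 0 := by
    rw [geom_sum_mul, hu, sub_self]
  have hsum : ∑ i ∈ Finset.range n, u ^ i = 0 := by
    rcases mul_eq_zero.mp hgeom with h1 | h1
    · exact h1
    · exact absurd h1 hx0
  have hsub : (n : K) = - ∑ i ∈ Finset.range n, (u ^ i - 1) := by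
    rw [Finset.sum_sub_distrib, hsum]
    simp
  have : w (n : K) ≤ w (u - 1) := by
    rw [hsub, map_neg_eq_map]
    exact abv_sum_le w hw _ _ (apply_nonneg _ _) fun i _ => hpow i
  exact absurd h (not_lt.mpr this)

/-- uniqueness of the `n`-th root near `1` -/
theorem root_unique (hw : IsNonarchimedean w) {n : ℕ} {g g' : K}
    (h : g ^ n = g' ^ n) (hg : w (g - 1) < w (n : K)) (hg' : w (g' - 1) < w (n : K)) :
    g = g' := by
  have hn1 : w (n : K) ≤ 1 := abv_natCast_le_one w hw n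
  have hwg' : w g' = 1 := by
    have h1 : w (g' - 1) < 1 := hg'.trans_le hn1
    have h2 : w (1 : K) = 1 := map_one _
    have h3 : w g' ≤ 1 := by
      have e : g' = (g' - 1) + 1 := by ring
      rw [e]
      exact (hw _ _).trans (max_le h1.le (by simp))
    have h4 : (1 : ℝ) ≤ max (w g') (w (g' - 1)) := by
      have e : (1 : K) = g' + -(g' - 1) := by ring
      calc (1 : ℝ) = w (1 : K) := h2.symm
        _ = w (g' + -(g' - 1)) := by rw [← e]
        _ ≤ max (w g') (w (-(g' - 1))) := hw _ _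
        _ = max (w g') (w (g' - 1)) := by rw [map_neg_eq_map]
    rcases le_max_iff.mp h4 with h5 | h5
    · exact le_antisymm h3 h5
    · exact absurd h1 (not_lt.mpr h5)
  have hg'0 : g' ≠ 0 := by
    rintro rfl
    simp at hwg'
  have hu : (g / g') ^ n = 1 := by
    rw [div_pow, h, div_self (pow_ne_zero _ hg'0)]
  have hu1 : w (g / g' - 1) < w (n : K) := by
    have e : g / g' - 1 = ((g - 1) + -(g' - 1)) / g' := by
      field_simp
      ring
    rw [e, map_div₀, hwg', div_one]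
    refine (hw _ _).trans_lt (max_lt hg ?_)
    rwa [map_neg_eq_map]
  have := eq_one_of_pow_eq_one w hw hu hu1
  rwa [div_eq_one_iff_eq hg'0] at this

/-- the root near `1` is fixed by every isometric automorphism which fixes its power -/
theorem root_fixed (hw : IsNonarchimedean w) {n : ℕ} {g : K}
    (hg : w (g - 1) < w (n : K)) (s : K →+* K) (hs : ∀ x, w (s x) = w x)
    (hf : s (g ^ n) = g ^ n) : s g = g := by
  refine root_unique w hw ?_ ?_ hg
  · rw [← map_pow, hf]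
  · have : s g - 1 = s (g - 1) := by rw [map_sub, map_one]
    rwa [this, hs]

end Root

section Sep

variable {N : Type*} [Field N]

theorem exists_sep {w₁ w₂ : AbsoluteValue N ℝ} {π : N} (h0 : π ≠ 0) (h1 : w₁ π < 1)
    (h12 : w₁ π = w₂ π) (hne : w₁ ≠ w₂) : ∃ x : N, 1 < w₁ x ∧ w₂ x < 1 := by
  apply AbsoluteValue.exists_one_lt_lt_one_of_not_isEquiv
  · exact ⟨π, h0, h1.ne⟩
  · exact ⟨π, h0, h12 ▸ h1.ne⟩
  · intro h
    obtain ⟨c, hc, hcw⟩ := AbsoluteValue.isEquiv_iff_exists_rpow_eq.mp h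
    apply hne
    have hπ0 : 0 < w₁ π := w₁.pos h0
    have h2 : w₁ π ^ c = w₁ π := by
      have := congrFun hcw π
      rw [h12]
      rw [h12] at this
      exact this
    have hc1 : c = 1 := by
      have h3 : w₁ π ^ c = w₁ π ^ (1 : ℝ) := by rw [h2, Real.rpow_one]
      exact (Real.rpow_right_inj hπ0 h1.ne).mp h3
    ext x
    have := congrFun hcw x
    simp only [hc1, Real.rpow_one] at this
    exact this

variable {H : Type*} [Group H] [MulSemiringAction H N]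

/-- an `H`-fixed element which is very large for `w₁` and very small for `w₂` -/
theorem exists_fixed_sep {w₁ w₂ : AbsoluteValue N ℝ} (hfin : ∀ x : N, (MulAction.orbit H x).Finite)
    (hw₁ : ∀ (s : H) (x : N), w₁ (s • x) = w₁ x) (hw₂ : ∀ (s : H) (x : N), w₂ (s • x) = w₂ x)
    {x : N} (hx₁ : 1 < w₁ x) (hx₂ : w₂ x < 1) {R : ℝ} (hR : 0 < R) :
    ∃ T : N, (∀ s : H, s • T = T) ∧ R ≤ w₁ T ∧ w₂ T ≤ 1 / R ∧ 1 ≤ w₁ T ∧ w₂ T ≤ 1 := by
  classical
  set O : Finset N := (hfin x).toFinset with hO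
  have hmem : ∀ y, y ∈ O ↔ y ∈ MulAction.orbit H x := fun y => by rw [hO, Set.Finite.mem_toFinset]
  have hxO : x ∈ O := (hmem x).mpr (MulAction.mem_orbit_self x)
  set P : N := ∏ y ∈ O, y with hP
  have hPfix : ∀ s : H, s • P = P := by
    intro s
    rw [hP, Finset.smul_prod']
    apply Finset.prod_bij (fun y _ => s • y)
    · intro y hy
      rw [hmem] at hy ⊢
      obtain ⟨t, rfl⟩ := hy
      exact ⟨s * t, mul_smul s t x⟩
    · intro y _ z _ h
      exact MulAction.injective s h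
    · intro y hy
      refine ⟨s⁻¹ • y, ?_, smul_inv_smul s y⟩
      rw [hmem] at hy ⊢
      obtain ⟨t, rfl⟩ := hy
      exact ⟨s⁻¹ * t, mul_smul s⁻¹ t x⟩
    · intro y _; rfl
  have hv₁ : ∀ y ∈ O, w₁ y = w₁ x := by
    intro y hy
    obtain ⟨t, rfl⟩ := (hmem y).mp hy
    exact hw₁ t x
  have hv₂ : ∀ y ∈ O, w₂ y = w₂ x := by
    intro y hy
    obtain ⟨t, rfl⟩ := (hmem y).mp hy
    exact hw₂ t x
  have hcard : O.card ≠ 0 := Finset.card_ne_zero_of_mem hxO
  have hP₁ : w₁ P = w₁ x ^ O.card := by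
    rw [hP, map_prod, Finset.prod_congr rfl hv₁, Finset.prod_const]
  have hP₂ : w₂ P = w₂ x ^ O.card := by
    rw [hP, map_prod, Finset.prod_congr rfl hv₂, Finset.prod_const]
  have hP₁' : 1 < w₁ P := by rw [hP₁]; exact one_lt_pow₀ hx₁ hcard
  have hP₂' : w₂ P < 1 := by rw [hP₂]; exact pow_lt_one₀ (apply_nonneg _ _) hx₂ hcard
  obtain ⟨m₁, hm₁⟩ := pow_unbounded_of_one_lt R hP₁'
  obtain ⟨m₂, hm₂⟩ := exists_pow_lt_of_lt_one (y := w₂ P) (x := 1 / max R 1)
    (by positivity) hP₂'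
  refine ⟨P ^ (m₁ + m₂), fun s => by rw [smul_pow', hPfix], ?_, ?_, ?_, ?_⟩
  · rw [map_pow]
    exact hm₁.le.trans (pow_le_pow_right₀ hP₁'.le (Nat.le_add_right _ _))
  · rw [map_pow]
    calc w₂ P ^ (m₁ + m₂) ≤ w₂ P ^ m₂ :=
          pow_le_pow_of_le_one (apply_nonneg _ _) hP₂'.le (Nat.le_add_left _ _)
      _ ≤ 1 / max R 1 := hm₂.le
      _ ≤ 1 / R := one_div_le_one_div_of_le hR (le_max_left _ _)
  · rw [map_pow]; exact one_le_pow₀ hP₁'.le
  · rw [map_pow]; exact pow_le_one₀ (apply_nonneg _ _) hP₂'.le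

/-- the estimates of A3 -/
theorem est {w₁ w₂ : AbsoluteValue N ℝ} (hna₁ : IsNonarchimedean w₁) (hna₂ : IsNonarchimedean w₂)
    {π T : N} {ρ R : ℝ} (hρ0 : 0 < ρ) (hρ1 : ρ < 1) (h₁ : w₁ π = ρ) (h₂ : w₂ π = ρ) {q : ℕ}
    (hq : 0 < q) (hR : 1 / ρ ^ (q + 1) < R) (hT₁ : R ≤ w₁ T) (hT₂ : w₂ T ≤ 1 / R) :
    T ^ q - π ≠ 0 ∧ T ^ q - π ^ (q + 1) ≠ 0 ∧
    w₁ ((T ^ q - π) / (T ^ q - π ^ (q + 1)) - 1) ≤ 1 / R ∧
    w₂ ((T ^ q - π) / (T ^ q - π ^ (q + 1)) * π ^ q - 1) ≤ 1 / (R * ρ ^ (q + 1)) ∧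
    w₁ (((T ^ q - π) * (T ^ q - π ^ (q + 1)))⁻¹) ≤ 1 ∧
    w₂ (((T ^ q - π) * (T ^ q - π ^ (q + 1)))⁻¹) ≤ 1 / ρ ^ (q + 2) := by
  have hρq : 0 < ρ ^ (q + 1) := pow_pos hρ0 _
  have hρq1 : ρ ^ (q + 1) ≤ ρ := by
    calc ρ ^ (q + 1) ≤ ρ ^ 1 := pow_le_pow_of_le_one hρ0.le hρ1.le (by omega)
      _ = ρ := pow_one ρ
  have hR1 : 1 < R := by
    refine lt_of_le_of_lt ?_ hR
    rw [le_div_iff₀ hρq, one_mul]
    exact pow_le_one₀ hρ0.le hρ1.le
  have hR0 : 0 < R := one_pos.trans hR1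
  have hRρ : 1 / R < ρ ^ (q + 1) := by
    rw [div_lt_iff₀ hR0]
    rw [div_lt_iff₀ hρq] at hR
    linarith [mul_comm R (ρ ^ (q + 1))]
  -- subtraction lemma
  have hsub : ∀ (w : AbsoluteValue N ℝ), IsNonarchimedean w → ∀ a b : N, w b < w a →
      w (a - b) = w a := by
    intro w hw a b hab
    apply le_antisymm
    · have := hw a (-b)
      rw [map_neg_eq_map, ← sub_eq_add_neg] at this
      exact this.trans (max_le le_rfl hab.le)
    · have h3 := hw (a - b) b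
      rw [sub_add_cancel] at h3
      rcases le_max_iff.mp h3 with h4 | h4
      · exact h4
      · exact absurd hab (not_lt.mpr h4)
  have hsub' : ∀ (w : AbsoluteValue N ℝ), IsNonarchimedean w → ∀ a b : N, w a < w b →
      w (a - b) = w b := by
    intro w hw a b hab
    rw [← map_neg_eq_map, neg_sub]
    exact hsub w hw b a hab
  have hTq₁ : R ≤ w₁ (T ^ q) := by
    rw [map_pow]
    calc R ≤ w₁ T := hT₁
      _ = (w₁ T) ^ 1 := (pow_one _).symm
      _ ≤ (w₁ T) ^ q := pow_le_pow_right₀ (hR1.le.trans hT₁) hq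
  have hTq₂ : w₂ (T ^ q) ≤ 1 / R := by
    have h3 : w₂ T ≤ 1 := hT₂.trans (by rw [div_le_one hR0]; exact hR1.le)
    rw [map_pow]
    calc (w₂ T) ^ q ≤ (w₂ T) ^ 1 := pow_le_pow_of_le_one (apply_nonneg _ _) h3 hq
      _ = w₂ T := pow_one _
      _ ≤ 1 / R := hT₂
  have hπq₁ : w₁ (π ^ (q + 1)) = ρ ^ (q + 1) := by rw [map_pow, h₁]
  have hπq₂ : w₂ (π ^ (q + 1)) = ρ ^ (q + 1) := by rw [map_pow, h₂]
  have a₁ : w₁ (T ^ q - π) = w₁ (T ^ q) :=
    hsub w₁ hna₁ _ _ (by rw [h₁]; exact (hρ1.trans hR1).trans_le hTq₁)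
  have b₁ : w₁ (T ^ q - π ^ (q + 1)) = w₁ (T ^ q) :=
    hsub w₁ hna₁ _ _ (by rw [hπq₁]; exact ((hρq1.trans_lt hρ1).trans hR1).trans_le hTq₁)
  have a₂ : w₂ (T ^ q - π) = ρ := by
    rw [hsub' w₂ hna₂ _ _ (by rw [h₂]; exact (hTq₂.trans_lt hRρ).trans_le hρq1), h₂]
  have b₂ : w₂ (T ^ q - π ^ (q + 1)) = ρ ^ (q + 1) := by
    rw [hsub' w₂ hna₂ _ _ (by rw [hπq₂]; exact hTq₂.trans_lt hRρ), hπq₂]
  have hTq0 : 0 < w₁ (T ^ q) := hR0.trans_le hTq₁
  have ha0 : T ^ q - π ≠ 0 := by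
    intro h
    rw [h, map_zero] at a₁
    exact hTq0.ne a₁
  have hb0 : T ^ q - π ^ (q + 1) ≠ 0 := by
    intro h
    rw [h, map_zero] at b₁
    exact hTq0.ne b₁
  refine ⟨ha0, hb0, ?_, ?_, ?_, ?_⟩
  · have e : (T ^ q - π) / (T ^ q - π ^ (q + 1)) - 1 =
        (π ^ (q + 1) - π) / (T ^ q - π ^ (q + 1)) := by
      field_simp
      ring
    rw [e, map_div₀, b₁]
    have h3 : w₁ (π ^ (q + 1) - π) ≤ 1 := by
      rw [sub_eq_add_neg]
      refine (hna₁ _ _).trans (max_le ?_ ?_)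
      · rw [hπq₁]; exact hρq1.trans hρ1.le
      · rw [map_neg_eq_map, h₁]; exact hρ1.le
    calc w₁ (π ^ (q + 1) - π) / w₁ (T ^ q) ≤ 1 / w₁ (T ^ q) :=
          div_le_div_of_nonneg_right h3 hTq0.le
      _ ≤ 1 / R := one_div_le_one_div_of_le hR0 hTq₁
  · have e : (T ^ q - π) / (T ^ q - π ^ (q + 1)) * π ^ q - 1 =
        T ^ q * (π ^ q - 1) / (T ^ q - π ^ (q + 1)) := by
      field_simp
      ring
    rw [e, map_div₀, b₂, map_mul]
    have h3 : w₂ (π ^ q - 1) ≤ 1 := by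
      rw [sub_eq_add_neg]
      refine (hna₂ _ _).trans (max_le ?_ ?_)
      · rw [map_pow, h₂]; exact pow_le_one₀ hρ0.le hρ1.le
      · rw [map_neg_eq_map, map_one]
    calc w₂ (T ^ q) * w₂ (π ^ q - 1) / ρ ^ (q + 1) ≤ (1 / R) * 1 / ρ ^ (q + 1) := by
          apply div_le_div_of_nonneg_right _ hρq.le
          exact mul_le_mul hTq₂ h3 (apply_nonneg _ _) (by positivity)
      _ = 1 / (R * ρ ^ (q + 1)) := by rw [mul_one, div_div]
  · rw [map_inv₀, map_mul, a₁, b₁]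
    apply inv_le_one_of_one_le₀
    have h3 : 1 ≤ w₁ (T ^ q) := hR1.le.trans hTq₁
    nlinarith
  · rw [map_inv₀, map_mul, a₂, b₂, one_div, pow_succ' ρ (q + 1)]

end Sep

end P025H444
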