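import Vale.Agent.P025.R2.H602.Roots

/-!
P025, row A-UNIQ (helper444): the polynomial `(X^q - α)(X^q - β) - s` for small `s` in a closed
subring of a complete ultrametric field: `X^q = α y^q` or `X^q = β z^q` with `y`, `z` near `1`.
-/

namespace P025H444

open P025H373

theorem exists_yz {C : Type*} [NontriviallyNormedField C] [IsUltrametricDist C] [CharZero C]
    {A : Type*} [NormedField A] [NormedAlgebra C A] [CompleteSpace A] [IsUltrametricDist A]
    (B : Subring A) (hB : IsClosed (B : Set A)) (hC : ∀ c : C, algebraMap C A c ∈ B)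
    {q : ℕ} (hq : q ≠ 0) {α β : C} (hα : α ≠ 0) (hβ : β ≠ 0) (hαβ : α ≠ β) :
    ∃ r : ℝ, 0 < r ∧ ∀ s ∈ B, ‖s‖ < r → ∃ y ∈ B, ∃ z ∈ B, ‖y - 1‖ < ‖(q : C)‖ ∧
      ‖z - 1‖ < ‖(q : C)‖ ∧
      algebraMap C A α * y ^ q + algebraMap C A β * z ^ q = algebraMap C A (α + β) ∧
      (algebraMap C A α * y ^ q) * (algebraMap C A β * z ^ q) = algebraMap C A (α * β) - s := by
  have h2C : (2 : C) ≠ 0 := two_ne_zero
  have hqC : (q : C) ≠ 0 := Nat.cast_ne_zero.mpr hq
  have hγ : α - β ≠ 0 := sub_ne_zero.mpr hαβ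
  set ν2 : ℝ := ‖(2 : C)‖ with hν2
  have hν2p : 0 < ν2 := norm_pos_iff.2 h2C
  set νq : ℝ := ‖(q : C)‖ with hνq
  have hνqp : 0 < νq := norm_pos_iff.2 hqC
  have hαp : 0 < ‖α‖ := norm_pos_iff.2 hα
  have hβp : 0 < ‖β‖ := norm_pos_iff.2 hβ
  have hγp : 0 < ‖α - β‖ := norm_pos_iff.2 hγ
  -- the discriminant: `δ² = 1 + u s`, `u = 4/(α-β)²`
  set u : C := 4 / (α - β) ^ 2 with hu
  have hu0 : u ≠ 0 := div_ne_zero (by norm_num) (pow_ne_zero _ hγ)
  have hup : 0 < ‖u‖ := norm_pos_iff.2 hu0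
  -- the bound on `δ - 1`
  set κ : ℝ := ‖α - β‖ / (ν2 * min ‖α‖ ‖β‖) with hκ
  have hmin : 0 < min ‖α‖ ‖β‖ := lt_min hαp hβp
  have hκp : 0 < κ := by positivity
  -- need: κ * ‖δ - 1‖ < νq ^ 2
  set r : ℝ := min (ν2 ^ 2 / ‖u‖) (νq ^ 2 / κ * ν2 / ‖u‖) with hr
  have hrp : 0 < r := lt_min (by positivity) (by positivity)
  refine ⟨r, hrp, fun s hs hsr => ?_⟩
  set uA : A := algebraMap C A u with huA
  have hsr1 : ‖s‖ < ν2 ^ 2 / ‖u‖ := hsr.trans_le (min_le_left _ _)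
  have hsr2 : ‖s‖ < νq ^ 2 / κ * ν2 / ‖u‖ := hsr.trans_le (min_le_right _ _)
  have hus : ‖uA * s‖ = ‖u‖ * ‖s‖ := by rw [norm_mul, huA, norm_algebraMap']
  obtain ⟨δ, hδB, hδ2, hδ1⟩ := exists_pow_eq (C := C) B hB hC (n := 2) (x := 1 + uA * s)
    (by exact_mod_cast h2C) (B.add_mem B.one_mem (B.mul_mem (hC _) hs)) (by
      rw [add_sub_cancel_left, hus]
      have : ((2 : ℕ) : C) = 2 := by norm_num
      rw [this, ← hν2]
      rw [lt_div_iff₀ hup] at hsr1
      linarith [mul_comm ‖s‖ ‖u‖])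
  have h2' : ((2 : ℕ) : C) = 2 := by norm_num
  rw [add_sub_cancel_left, hus, h2', ← hν2] at hδ1
  have hδκ : κ * ‖δ - 1‖ < νq ^ 2 := by
    have h3 : ‖u‖ * ‖s‖ / ν2 < νq ^ 2 / κ := by
      rw [div_lt_iff₀ hν2p]
      rw [lt_div_iff₀ hup] at hsr2
      linarith [mul_comm ‖s‖ ‖u‖]
    have h4 : ‖δ - 1‖ < νq ^ 2 / κ := hδ1.trans_lt h3
    rw [lt_div_iff₀ hκp] at h4
    linarith [mul_comm κ ‖δ - 1‖]
  have hνq1 : νq ≤ 1 := IsUltrametricDist.norm_natCast_le_one C q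
  -- the two perturbations
  set a : C := (α - β) / (2 * α) with ha
  set b : C := (β - α) / (2 * β) with hb
  have hna : ‖a‖ ≤ κ := by
    rw [ha, hκ, norm_div, norm_mul, ← hν2]
    apply div_le_div_of_nonneg_left hγp.le (by positivity)
    exact mul_le_mul_of_nonneg_left (min_le_left _ _) hν2p.le
  have hnb : ‖b‖ ≤ κ := by
    rw [hb, hκ, norm_div, norm_mul, ← hν2, norm_sub_rev]
    apply div_le_div_of_nonneg_left hγp.le (by positivity)
    exact mul_le_mul_of_nonneg_left (min_le_right _ _) hν2p.le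
  have key : ∀ c : C, ‖c‖ ≤ κ → ∃ y ∈ B, y ^ q = 1 + algebraMap C A c * (δ - 1) ∧
      ‖y - 1‖ < νq := by
    intro c hc
    have h5 : ‖algebraMap C A c * (δ - 1)‖ < νq ^ 2 := by
      rw [norm_mul, norm_algebraMap']
      exact (mul_le_mul_of_nonneg_right hc (norm_nonneg _)).trans_lt hδκ
    obtain ⟨y, hyB, hyq, hy1⟩ := exists_pow_eq (C := C) B hB hC (n := q)
      (x := 1 + algebraMap C A c * (δ - 1)) hqC
      (B.add_mem B.one_mem (B.mul_mem (hC _) (B.sub_mem hδB B.one_mem))) (by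
        rw [add_sub_cancel_left]; exact h5)
    refine ⟨y, hyB, hyq, ?_⟩
    rw [add_sub_cancel_left] at hy1
    refine hy1.trans_lt ?_
    rw [div_lt_iff₀ hνqp, ← pow_two]
    exact h5
  obtain ⟨y, hyB, hyq, hy1⟩ := key a hna
  obtain ⟨z, hzB, hzq, hz1⟩ := key b hnb
  have e1 : algebraMap C A α * y ^ q = algebraMap C A α + algebraMap C A ((α - β) / 2) * (δ - 1) := by
    rw [hyq, mul_add, mul_one, ← mul_assoc, ← map_mul]
    congr 3
    rw [ha]; field_simp
  have e2 : algebraMap C A β * z ^ q = algebraMap C A β - algebraMap C A ((α - β) / 2) * (δ - 1) := by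
    have hb' : β * b = -((α - β) / 2) := by rw [hb]; field_simp; ring
    rw [hzq, mul_add, mul_one, ← mul_assoc, ← map_mul, hb', map_neg]
    ring
  refine ⟨y, hyB, z, hzB, hy1, hz1, ?_, ?_⟩
  · rw [e1, e2, map_add]; ring
  · rw [e1, e2]
    have e3 : algebraMap C A ((α - β) / 2) ^ 2 * (uA * s) = s := by
      rw [huA, ← mul_assoc, ← map_pow, ← map_mul]
      have : ((α - β) / 2) ^ 2 * u = 1 := by
        rw [hu]; field_simp; norm_num
      rw [this, map_one, one_mul]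
    have e4 : algebraMap C A ((α - β) / 2) * 2 = algebraMap C A α - algebraMap C A β := by
      have : (2 : A) = algebraMap C A 2 := (map_ofNat (algebraMap C A) 2).symm
      rw [this, ← map_mul, ← map_sub]
      congr 1
      field_simp
    have e5 : δ ^ 2 = 1 + uA * s := hδ2
    set m : A := algebraMap C A ((α - β) / 2) with hm
    rw [map_mul]
    linear_combination (-1 : A) * e3 - m ^ 2 * e5 + (m * δ - m) * e4
end P025H444
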