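import Mathlib

namespace P025H444

section TwoPoint

variable {H : Type*} [Group H] {kb ka K₁ K₂ : Type*} [Field kb] [Field ka] [Field K₁] [Field K₂]
  [MulSemiringAction H kb] [MulSemiringAction H ka] [MulSemiringAction H K₁]
  [MulSemiringAction H K₂]

theorem exists_const [IsAlgClosed kb] (i : kb →+* K₁) {n : ℕ} (hn : 0 < n) {c : kb} (hc : c ≠ 0)
    {y : K₁} (hy : y ^ n = i c) : ∃ z : kb, z ^ n = c ∧ i z = y := by
  obtain ⟨z₀, hz₀⟩ := IsAlgClosed.exists_pow_nat_eq c hn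
  have hz₀0 : z₀ ≠ 0 := by
    rintro rfl
    rw [zero_pow hn.ne'] at hz₀
    exact hc hz₀.symm
  have h1 : (y / i z₀) ^ n = 1 := by
    rw [div_pow, hy, ← map_pow, hz₀, div_self]
    exact (map_ne_zero i).mpr hc
  have hsplit : (Polynomial.X ^ n - 1 : Polynomial kb).Splits := IsAlgClosed.splits _
  have hne : (Polynomial.X ^ n - 1 : Polynomial kb) ≠ 0 := by
    have := Polynomial.X_pow_sub_C_ne_zero hn (1 : kb)
    simpa using this
  have hroot : (y / i z₀) ∈ ((Polynomial.X ^ n - 1 : Polynomial kb).map i).roots := by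
    rw [Polynomial.mem_roots]
    · simp [Polynomial.IsRoot.def, h1]
    · exact (Polynomial.map_ne_zero_iff i.injective).mpr hne
  have hroots := hsplit.roots_map i
  rw [hroots, Multiset.mem_map] at hroot
  obtain ⟨ζ, hζ, hζ'⟩ := hroot
  have hζ1 : ζ ^ n = 1 := by
    have := (Polynomial.mem_roots hne).mp hζ
    simpa [Polynomial.IsRoot.def, sub_eq_zero] using this
  refine ⟨ζ * z₀, ?_, ?_⟩
  · rw [mul_pow, hζ1, one_mul, hz₀]
  · rw [map_mul, hζ', div_mul_cancel₀]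
    exact (map_ne_zero i).mpr hz₀0

/-- the two point lemma -/
theorem two_point [IsAlgClosed kb] (i : kb →+* ka) (j₁ : ka →+* K₁) (j₂ : ka →+* K₂)
    (hi : ∀ (s : H) (x : kb), i (s • x) = s • i x)
    (hj₁ : ∀ (s : H) (x : ka), j₁ (s • x) = s • j₁ x)
    (hj₂ : ∀ (s : H) (x : ka), j₂ (s • x) = s • j₂ x)
    {n : ℕ} (hn : 0 < n) {G : ka} (hG : ∀ s : H, s • (G ^ n) = G ^ n)
    {c₁ c₂ : kb} (hc₁ : c₁ ≠ 0) (hc₂ : c₂ ≠ 0) {g₁ : K₁} {g₂ : K₂}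
    (hg₁0 : g₁ ≠ 0) (hg₂0 : g₂ ≠ 0)
    (hg₁ : ∀ s : H, s • g₁ = g₁) (hg₂ : ∀ s : H, s • g₂ = g₂)
    (h₁ : j₁ (G ^ n) = j₁ (i c₁) * g₁ ^ n) (h₂ : j₂ (G ^ n) = j₂ (i c₂) * g₂ ^ n) :
    ∃ u : kb, (∀ s : H, s • u = u) ∧ u ^ n * c₂ = c₁ := by
  have hG0 : G ≠ 0 := by
    rintro rfl
    rw [zero_pow hn.ne', map_zero] at h₁
    have : j₁ (i c₁) * g₁ ^ n ≠ 0 :=
      mul_ne_zero ((map_ne_zero j₁).mpr ((map_ne_zero i).mpr hc₁)) (pow_ne_zero _ hg₁0)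
    exact this h₁.symm
  obtain ⟨z₁, hz₁, hz₁'⟩ := exists_const (j₁.comp i) hn hc₁ (y := j₁ G / g₁) (by
    rw [div_pow, ← map_pow, h₁, mul_div_cancel_right₀ _ (pow_ne_zero _ hg₁0)]; rfl)
  obtain ⟨z₂, hz₂, hz₂'⟩ := exists_const (j₂.comp i) hn hc₂ (y := j₂ G / g₂) (by
    rw [div_pow, ← map_pow, h₂, mul_div_cancel_right₀ _ (pow_ne_zero _ hg₂0)]; rfl)
  have hz₁0 : z₁ ≠ 0 := by
    rintro rfl; rw [zero_pow hn.ne'] at hz₁; exact hc₁ hz₁.symm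
  have hz₂0 : z₂ ≠ 0 := by
    rintro rfl; rw [zero_pow hn.ne'] at hz₂; exact hc₂ hz₂.symm
  have key : ∀ s : H, (s • z₁) * z₂ = (s • z₂) * z₁ := by
    intro s
    -- `s G / G` is a root of unity
    have hsG : (s • G) ^ n = G ^ n := by rw [← smul_pow', hG]
    have hr : (s • G / G) ^ n = i 1 := by
      rw [div_pow, hsG, div_self (pow_ne_zero _ hG0), map_one]
    obtain ⟨ζ, hζ, hζ'⟩ := exists_const i hn one_ne_zero hr
    have hsG' : s • G = i ζ * G := by rw [hζ', div_mul_cancel₀ _ hG0]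
    have e₁ : s • z₁ = ζ * z₁ := by
      apply (j₁.comp i).injective
      rw [map_mul]
      have e1 : (j₁.comp i) (s • z₁) = s • (j₁ G / g₁) := by
        rw [← hz₁']
        show j₁ (i (s • z₁)) = s • j₁ (i z₁)
        rw [hi, hj₁]
      rw [e1, hz₁', div_eq_mul_inv, smul_mul', smul_inv₀', hg₁, ← hj₁, hsG', map_mul]
      show j₁ (i ζ) * j₁ G * g₁⁻¹ = j₁ (i ζ) * (j₁ G * g₁⁻¹)
      rw [mul_assoc]
    have e₂ : s • z₂ = ζ * z₂ := by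
      apply (j₂.comp i).injective
      rw [map_mul]
      have e1 : (j₂.comp i) (s • z₂) = s • (j₂ G / g₂) := by
        rw [← hz₂']
        show j₂ (i (s • z₂)) = s • j₂ (i z₂)
        rw [hi, hj₂]
      rw [e1, hz₂', div_eq_mul_inv, smul_mul', smul_inv₀', hg₂, ← hj₂, hsG', map_mul]
      show j₂ (i ζ) * j₂ G * g₂⁻¹ = j₂ (i ζ) * (j₂ G * g₂⁻¹)
      rw [mul_assoc]
    rw [e₁, e₂]; ring
  refine ⟨z₁ / z₂, fun s => ?_, ?_⟩
  · rw [div_eq_mul_inv, smul_mul', smul_inv₀', ← div_eq_mul_inv, ← div_eq_mul_inv]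
    have hs0 : s • z₂ ≠ 0 := by rwa [Ne, smul_eq_zero_iff_eq]
    rw [div_eq_div_iff hs0 hz₂0, key s, mul_comm]
  · rw [div_pow, hz₁, hz₂, div_mul_cancel₀ _ hc₂]

end TwoPoint

end P025H444
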