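import Vale.Agent.P025.R2.H720.Tree
import Vale.Agent.P025.R2.H444.Quad
import Vale.Agent.P025.R2.H444.TwoPoint
import Vale.Agent.P025.R2.H444.Est

/-!
P025, row A-UNIQ (helper444), step (i) of A3: a `D`-vertex of `T`, fixed by `H`, where
`(T₁^q - α)(T₁^q - β) c T = 1`, `|c|` large, gives a `q`-th root of `α` or of `β` in `kb^H`.
(No finite levels and no discs around the poles are needed: the quadratic equation for `T₁^q` and
`q`-th roots of elements near `1` in `A2 C`.)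
-/

set_option linter.unusedSectionVars false

namespace P025H444

open scoped TensorProduct
open Polynomial P025H373 P025H544 P025H505 P025H720

universe u v w x

section Abstract

variable {H : Type*} [Group H] [TopologicalSpace H]
  {C : Type u} {kb : Type v}
  [NontriviallyNormedField C] [IsUltrametricDist C] [CompleteSpace C] [IsAlgClosed C] [CharZero C]
  [Field kb] [IsAlgClosed kb] [Algebra kb C]
  [MulSemiringAction H kb] [MulSemiringAction H C]
  [NormAct H C] [Equi H kb C]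

theorem smul_near {y : F0 C} {r : ℝ} (hy : ‖y - 1‖ < r) (g : H) : ‖g • y - 1‖ < r := by
  have h1 : g • y - 1 = g • (y - 1) := by rw [smul_sub, smul_one]
  rw [h1, norm_smul_F0]
  exact hy

theorem norm_near {z : F0 C} (hz : ‖z - 1‖ < 1) : ‖z‖ = 1 := by
  have h5 : ‖z - 1 + 1‖ = max ‖z - 1‖ ‖(1 : F0 C)‖ :=
    IsUltrametricDist.norm_add_eq_max_of_norm_ne_norm (by rw [norm_one]; exact hz.ne)
  rw [sub_add_cancel, norm_one, max_eq_right hz.le] at h5
  exact h5

/-- constants of `kb` in `F2` -/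
noncomputable def kF2 (C : Type u) (kb : Type v) [NontriviallyNormedField C]
    [IsUltrametricDist C] [Field kb] [Algebra kb C] : kb →+* F2 C :=
  (algebraMap C (F2 C)).comp (algebraMap kb C)

theorem kF2_coe (a : kb) : ((kF2 C kb a : F2 C) : F0 C) = algebraMap C (F0 C) (algebraMap kb C a) :=
  rfl

theorem kF2_smul (g : H) (a : kb) : g • kF2 C kb a = kF2 C kb (g • a) := by
  apply Subtype.ext
  show g • algebraMap C (F0 C) (algebraMap kb C a) = algebraMap C (F0 C) (algebraMap kb C (g • a))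
  rw [Equi.smul_algebraMap (G := H) (F := C), Equi.smul_algebraMap (G := H) (F := kb)]

/-- a root `ϖ` with `ϖ y` fixed, `y` near `1`, is fixed -/
theorem fixed_of_near {q : ℕ} (hq : q ≠ 0) {α ϖ : kb} (hα : α ≠ 0)
    (hαH : ∀ g : H, g • α = α) (hϖ : ϖ ^ q = α) {y : F2 C} (hy : ‖(y : F0 C) - 1‖ < ‖(q : C)‖)
    (g : H) (h3 : kF2 C kb ϖ * y = g • (kF2 C kb ϖ * y)) : g • ϖ = ϖ := by
  have hϖ0 : ϖ ≠ 0 := by
    rintro rfl
    rw [zero_pow hq] at hϖ
    exact hα hϖ.symm
  have h4 : algebraMap C (F0 C) (algebraMap kb C ϖ) * (y : F0 C) =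
      algebraMap C (F0 C) (algebraMap kb C (g • ϖ)) * (g • (y : F0 C)) := by
    rw [smul_mul', kF2_smul] at h3
    exact congrArg (fun z : F2 C => (z : F0 C)) h3
  -- the root of unity
  have hy1 : ‖(y : F0 C) - 1‖ < 1 := hy.trans_le (IsUltrametricDist.norm_natCast_le_one C q)
  have hgy1 : ‖g • (y : F0 C) - 1‖ < 1 := smul_near hy1 g
  have hz0 : algebraMap C (F0 C) (algebraMap kb C ϖ) ≠ 0 := by
    rw [Ne, map_eq_zero, map_eq_zero]; exact hϖ0
  set ζ : kb := g • ϖ / ϖ with hζ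
  have hζq : ζ ^ q = 1 := by
    rw [hζ, div_pow, ← smul_pow', hϖ, hαH g, div_self hα]
  have hζ0 : algebraMap C (F0 C) (algebraMap kb C ζ) * (g • (y : F0 C)) = (y : F0 C) := by
    have e1 : algebraMap kb C ζ = algebraMap kb C (g • ϖ) / algebraMap kb C ϖ := by
      rw [hζ, map_div₀]
    rw [e1, map_div₀, div_mul_eq_mul_div, ← h4, mul_comm, mul_div_assoc, div_self hz0, mul_one]
  have hζ1 : ‖algebraMap kb C ζ - 1‖ < ‖(q : C)‖ := by
    have e2 : ‖algebraMap kb C ζ - 1‖ = ‖(algebraMap C (F0 C) (algebraMap kb C ζ) - 1) *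
        (g • (y : F0 C))‖ := by
      rw [norm_mul, norm_near hgy1, mul_one, ← map_one (algebraMap C (F0 C)), ← map_sub,
        norm_algebraMap_C]
    have e3 : (algebraMap C (F0 C) (algebraMap kb C ζ) - 1) * (g • (y : F0 C)) =
        ((y : F0 C) - 1) - (g • (y : F0 C) - 1) := by
      rw [sub_mul, hζ0]; ring
    rw [e2, e3, sub_eq_add_neg]
    refine (IsUltrametricDist.norm_add_le_max _ _).trans_lt (max_lt hy ?_)
    rw [norm_neg]
    exact smul_near hy g
  have hζ' : algebraMap kb C ζ = 1 := by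
    refine eq_one_of_pow_eq_one (nv C) (nv_na C) (n := q) ?_ hζ1
    rw [← map_pow, hζq, map_one]
  have hζ'' : ζ = 1 := by
    apply (algebraMap kb C).injective
    rw [hζ', map_one]
  rw [hζ, div_eq_one_iff_eq hϖ0] at hζ''
  exact hζ''

theorem eq_zero_of_mem {F R : Type*} [Field F] [CommRing R] (ι : F →+* R) (I : Ideal R)
    (hI : I ≠ ⊤) {y : F} (h : ι y ∈ I) : y = 0 := by
  by_contra h0
  apply hI
  rw [Ideal.eq_top_iff_one]
  have h1 := I.mul_mem_left (ι y⁻¹) h
  rwa [← map_mul, inv_mul_cancel₀ h0, map_one] at h1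

/-- step (i) of A3, abstract -/
theorem exists_root_abs (C : Type u) [NontriviallyNormedField C] [IsUltrametricDist C]
    [CompleteSpace C] [IsAlgClosed C] [CharZero C] [Algebra kb C] [MulSemiringAction H C]
    [NormAct H C] [Equi H kb C] {q : ℕ} (hq : q ≠ 0) {α β : kb} (hα : α ≠ 0) (hβ : β ≠ 0)
    (hαβ : α ≠ β) (hαH : ∀ g : H, g • α = α) (hβH : ∀ g : H, g • β = β) :
    ∃ r : ℝ, ∀ {R : Type x} [CommRing R] [MulSemiringAction H R] (ι : F2 C →+* R)
      (_ : ∀ (g : H) (z : F2 C), g • ι z = ι (g • z)) (τ : R) (_ : ∀ g : H, g • τ = τ)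
      (I : Ideal R) [I.IsPrime] (_ : ∀ (g : H) (z : R), z ∈ I → g • z ∈ I) (c : kb)
      (_ : r < ‖algebraMap kb C c‖)
      (_ : (τ ^ q - ι (kF2 C kb α)) * (τ ^ q - ι (kF2 C kb β)) *
        (ι (kF2 C kb c) * ι (algebraMap (RatFunc C) (F2 C) RatFunc.X)) = 1),
      ∃ u : kb, (∀ g : H, g • u = u) ∧ (u ^ q = α ∨ u ^ q = β) := by
  have hα' : algebraMap kb C α ≠ 0 := by rwa [Ne, map_eq_zero]
  have hβ' : algebraMap kb C β ≠ 0 := by rwa [Ne, map_eq_zero]
  have hαβ' : algebraMap kb C α ≠ algebraMap kb C β := fun h => hαβ ((algebraMap kb C).injective h)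
  obtain ⟨r, hr0, hr⟩ := exists_yz (C := C) (A := F0 C) (A2 C).toSubring isClosed_A2
    (fun c => (A2 C).algebraMap_mem c) hq hα' hβ' hαβ'
  refine ⟨1 / r, fun {R} _ _ ι hι τ hτ I _ hI c hc heq => ?_⟩
  have hc0 : 0 < ‖algebraMap kb C c‖ := (by positivity : (0:ℝ) < 1 / r).trans hc
  have hc0' : algebraMap kb C c ≠ 0 := norm_pos_iff.mp hc0
  obtain ⟨s, hs⟩ : ∃ s : F0 C, s = algebraMap C (F0 C) (algebraMap kb C c)⁻¹ * (tt C)⁻¹ := ⟨_, rfl⟩
  have hsA : s ∈ (A2 C).toSubring := by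
    rw [hs]; exact (A2 C).mul_mem ((A2 C).algebraMap_mem _) inv_tt_mem_A2
  have hsn : ‖s‖ < r := by
    rw [hs, norm_mul, norm_inv, norm_tt, inv_one, mul_one, norm_algebraMap_C, norm_inv]
    rw [div_lt_iff₀ hr0] at hc
    rw [inv_lt_iff_one_lt_mul₀ hc0]
    linarith [mul_comm r ‖algebraMap kb C c‖]
  obtain ⟨y, hyA, z, hzA, hy, hz, hsum, hprod⟩ := hr s hsA hsn
  obtain ⟨y', hy'⟩ : ∃ y' : F2 C, (y' : F0 C) = y := ⟨⟨y, A2_le_F2 hyA⟩, rfl⟩
  obtain ⟨z', hz'⟩ : ∃ y' : F2 C, (y' : F0 C) = z := ⟨⟨z, A2_le_F2 hzA⟩, rfl⟩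
  obtain ⟨s', hs'⟩ : ∃ y' : F2 C, (y' : F0 C) = s := ⟨⟨s, A2_le_F2 hsA⟩, rfl⟩
  have hsum' : kF2 C kb α * y' ^ q + kF2 C kb β * z' ^ q = kF2 C kb α + kF2 C kb β := by
    apply Subtype.ext
    show algebraMap C (F0 C) (algebraMap kb C α) * (y' : F0 C) ^ q +
      algebraMap C (F0 C) (algebraMap kb C β) * (z' : F0 C) ^ q = _
    rw [hy', hz', hsum, map_add]; rfl
  have hprod' : (kF2 C kb α * y' ^ q) * (kF2 C kb β * z' ^ q) =
      kF2 C kb α * kF2 C kb β - s' := by
    apply Subtype.ext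
    show (algebraMap C (F0 C) (algebraMap kb C α) * (y' : F0 C) ^ q) *
      (algebraMap C (F0 C) (algebraMap kb C β) * (z' : F0 C) ^ q) =
      algebraMap C (F0 C) (algebraMap kb C α) * algebraMap C (F0 C) (algebraMap kb C β) -
        (s' : F0 C)
    rw [hy', hz', hs', hprod, map_mul]
  have hs1 : s' * (kF2 C kb c * algebraMap (RatFunc C) (F2 C) RatFunc.X) = 1 := by
    apply Subtype.ext
    show (s' : F0 C) * (algebraMap C (F0 C) (algebraMap kb C c) * tt C) = 1
    have h5 : algebraMap C (F0 C) (algebraMap kb C c) ≠ 0 := by rwa [Ne, map_eq_zero]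
    rw [hs', hs, map_inv₀]
    field_simp [h5, tt_ne_zero (C := C)]
  -- the equation
  have e1 : (τ ^ q - ι (kF2 C kb α)) * (τ ^ q - ι (kF2 C kb β)) = ι s' := by
    have h6 := congrArg ι hs1
    rw [map_mul, map_mul, map_one] at h6
    linear_combination (ι s') * heq - ((τ ^ q - ι (kF2 C kb α)) *
      (τ ^ q - ι (kF2 C kb β))) * h6
  have e2 : (τ ^ q - ι (kF2 C kb α * y' ^ q)) * (τ ^ q - ι (kF2 C kb β * z' ^ q)) = 0 := by
    have h5 := congrArg ι hsum'
    have h6 := congrArg ι hprod'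
    rw [map_add, map_add] at h5
    rw [map_mul, map_sub, map_mul ι (kF2 C kb α) (kF2 C kb β)] at h6
    linear_combination e1 - τ ^ q * h5 + h6
  -- one of the two
  have e3 : τ ^ q - ι (kF2 C kb α * y' ^ q) ∈ I ∨ τ ^ q - ι (kF2 C kb β * z' ^ q) ∈ I :=
    Ideal.IsPrime.mem_or_mem ‹_› (by rw [e2]; exact I.zero_mem)
  have hyn : ∀ y : F0 C, ‖y - 1‖ < ‖(q : C)‖ → y ≠ 0 := by
    rintro y hy rfl
    rw [zero_sub, norm_neg, norm_one] at hy
    exact absurd (IsUltrametricDist.norm_natCast_le_one C q) (not_le.mpr hy)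
  -- the general case
  have key : ∀ (a : kb) (ha : a ≠ 0) (haH : ∀ g : H, g • a = a) (x : F2 C)
      (hx : ‖(x : F0 C) - 1‖ < ‖(q : C)‖)
      (hm : τ ^ q - ι (kF2 C kb a * x ^ q) ∈ I),
      ∃ u : kb, (∀ g : H, g • u = u) ∧ u ^ q = a := by
    intro a ha haH x hx hm
    have hx0 : x ≠ 0 := fun h => hyn _ hx (congrArg Subtype.val h)
    let ρ : R →+* I.ResidueField := algebraMap R I.ResidueField
    have hρ : ∀ w, ρ w = 0 ↔ w ∈ I := fun w => Ideal.algebraMap_residueField_eq_zero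
    have hm' := (hρ _).mpr hm
    rw [map_sub, sub_eq_zero, map_pow, map_mul, map_mul, map_pow, map_pow] at hm'
    have hρx : ρ (ι x) ≠ 0 := by
      rw [Ne, hρ]
      exact fun h => hx0 (eq_zero_of_mem ι I (Ideal.IsPrime.ne_top ‹_›) h)
    obtain ⟨ϖ, hϖ, hϖ'⟩ := exists_const ((ρ.comp ι).comp (kF2 C kb)) (Nat.pos_of_ne_zero hq) ha
      (y := ρ τ / ρ (ι x)) (by
        rw [div_pow, hm', mul_div_cancel_right₀ _ (pow_ne_zero _ hρx)]
        rfl)
    have hmem : τ - ι (kF2 C kb ϖ * x) ∈ I := by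
      rw [← hρ, map_sub, sub_eq_zero, map_mul, map_mul]
      have : ρ (ι (kF2 C kb ϖ)) = ρ τ / ρ (ι x) := hϖ'
      rw [this, div_mul_cancel₀ _ hρx]
    refine ⟨ϖ, fun g => fixed_of_near hq ha haH hϖ hx g ?_, hϖ⟩
    have h1 := hI g _ hmem
    rw [smul_sub, hτ, hι] at h1
    have h2 := I.sub_mem h1 hmem
    rw [sub_sub_sub_cancel_left, ← map_sub] at h2
    exact sub_eq_zero.mp (eq_zero_of_mem ι I (Ideal.IsPrime.ne_top ‹_›) h2)
  rcases e3 with h | h
  · obtain ⟨u, hu, hu'⟩ := key α hα hαH y' (by rw [hy']; exact hy) h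
    exact ⟨u, hu, Or.inl hu'⟩
  · obtain ⟨u, hu, hu'⟩ := key β hβ hβH z' (by rw [hz']; exact hz) h
    exact ⟨u, hu, Or.inr hu'⟩

end Abstract

section Concrete

variable (H : Type*) [Group H] [TopologicalSpace H] [IsTopologicalGroup H]
  (C : Type u) (kb : Type v) {N : Type w}
  [NontriviallyNormedField C] [IsUltrametricDist C] [CompleteSpace C] [IsAlgClosed C] [CharZero C]
  [Field kb] [IsAlgClosed kb] [Field N] [Algebra kb C] [Algebra kb N] [TrdegOne kb N]
  [MulSemiringAction H kb] [MulSemiringAction H C] [MulSemiringAction H N]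
  [NormAct H C] [OpenStab H N] [Equi H kb C] [Equi H kb N]

/-- `F → F ⊗ NC` -/
noncomputable def iF (F : Type*) [Field F] [Algebra (RatFunc C) F] (T : N)
    [Fact (Transcendental kb T)] : F →+* F ⊗[RatFunc C] NCT C kb N T :=
  (Algebra.TensorProduct.includeLeft (R := RatFunc C) (S := RatFunc C) (A := F)
    (B := NCT C kb N T)).toRingHom

/-- `N → F ⊗ NC` -/
noncomputable def iN (F : Type*) [Field F] [Algebra (RatFunc C) F] (T : N)
    [Fact (Transcendental kb T)] : N →+* F ⊗[RatFunc C] NCT C kb N T :=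
  (Algebra.TensorProduct.includeRight (R := RatFunc C) (A := F)
    (B := NCT C kb N T)).toRingHom.comp (algebraMap N (NCT C kb N T))

theorem iF_apply (F : Type*) [Field F] [Algebra (RatFunc C) F] (T : N)
    [Fact (Transcendental kb T)] (x : F) : iF C kb F T x = x ⊗ₜ[RatFunc C] (1 : NCT C kb N T) := rfl

theorem iN_apply (F : Type*) [Field F] [Algebra (RatFunc C) F] (T : N)
    [Fact (Transcendental kb T)] (x : N) :
    iN C kb F T x = 1 ⊗ₜ[RatFunc C] algebraMap N (NCT C kb N T) x := rfl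

/-- a constant of `C(t)` on both sides of the tensor product -/
theorem const_tmul (F : Type*) [Field F] [Algebra (RatFunc C) F] [Algebra C F]
    [IsScalarTower C (RatFunc C) F] (T : N) [Fact (Transcendental kb T)] (c : kb) :
    iN C kb F T (algebraMap kb N c) = iF C kb F T (algebraMap C F (algebraMap kb C c)) := by
  rw [iN_apply, iF_apply, ← IsScalarTower.algebraMap_apply kb N (NCT C kb N T),
    IsScalarTower.algebraMap_apply kb C (NCT C kb N T), ← algebraMap_T_C,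
    IsScalarTower.algebraMap_apply C (RatFunc C) F]
  rw [Algebra.algebraMap_eq_smul_one, Algebra.algebraMap_eq_smul_one (A := F),
    TensorProduct.smul_tmul]
  rfl

/-- the variable -/
theorem var_tmul (F : Type*) [Field F] [Algebra (RatFunc C) F] (T : N)
    [Fact (Transcendental kb T)] :
    iN C kb F T T = iF C kb F T (algebraMap (RatFunc C) F RatFunc.X) := by
  rw [iN_apply, iF_apply, ← algebraMap_T_X, Algebra.algebraMap_eq_smul_one,
    Algebra.algebraMap_eq_smul_one (A := F), TensorProduct.smul_tmul]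

theorem smul_iN (F : Type*) [Field F] [Algebra (RatFunc C) F] [MulSemiringAction H F]
    [Equi H (RatFunc C) F] (T : N) [Fact (Transcendental kb T)] [FixedT H T] (g : H) (x : N) :
    g • iN C kb F T x = iN C kb F T (g • x) := by
  rw [iN_apply, iN_apply, smul_tmul_semi, smul_one, Equi.smul_algebraMap (G := H) (F := N)]

theorem smul_iF (F : Type*) [Field F] [Algebra (RatFunc C) F] [MulSemiringAction H F]
    [Equi H (RatFunc C) F] (T : N) [Fact (Transcendental kb T)] [FixedT H T] (g : H) (x : F) :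
    g • iF C kb F T x = iF C kb F T (g • x) := by
  rw [iF_apply, iF_apply, smul_tmul_semi, smul_one]

/-- step (i) of A3: fixed `D`-vertices of `T` -/
theorem exists_root_of_fixed_D {q : ℕ} (hq : q ≠ 0) {α β : kb} (hα : α ≠ 0) (hβ : β ≠ 0)
    (hαβ : α ≠ β) (hαH : ∀ g : H, g • α = α) (hβH : ∀ g : H, g • β = β) :
    ∃ r : ℝ, ∀ (T T₁ : N) [Fact (Transcendental kb T)] [FixedT H T], (∀ g : H, g • T₁ = T₁) →
      ∀ c : kb, r < ‖algebraMap kb C c‖ →
      (T₁ ^ q - algebraMap kb N α) * (T₁ ^ q - algebraMap kb N β) * (algebraMap kb N c * T) = 1 →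
      ∀ d : DT C kb N T, (∀ g : H, g • d = d) →
      ∃ u : kb, (∀ g : H, g • u = u) ∧ (u ^ q = α ∨ u ^ q = β) := by
  obtain ⟨r, hr⟩ := exists_root_abs (H := H) (kb := kb) C hq hα hβ hαβ hαH hβH
  refine ⟨r, fun T T₁ _ _ hT₁ c hc heq d hd => ?_⟩
  refine hr (R := F2 C ⊗[RatFunc C] NCT C kb N T) (iF C kb (F2 C) T) (fun g z => smul_iF H C kb _ T g z)
    (iN C kb (F2 C) T T₁) (fun g => by rw [smul_iN, hT₁]) d.asIdeal (fun g z hz => ?_) c hc ?_
  · have := (smul_mem_smul_iff g d z).mpr hz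
    rwa [hd g] at this
  · have h1 := congrArg (iN C kb (F2 C) T) heq
    rw [map_mul, map_mul, map_mul, map_sub, map_sub, map_pow, const_tmul, const_tmul, const_tmul,
      var_tmul, map_one] at h1
    exact h1

end Concrete

end P025H444
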