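import Vale.Agent.P025.R2.H444.ContF
import Vale.Agent.P025.R2.H63.ContDef

/-!
P025, A-END, tree side (helper444): row (2e) for the relation `P025H63.Cont`.
-/

set_option linter.unusedSectionVars false

open TensorProduct P025H373 P025H544 P025H720 P025H361

universe u v w

namespace P025H444

section Abs

variable {F A M R N : Type*} [Field F] [Field A] [Field M] [Algebra F A]
  [Algebra F M] [Algebra.IsAlgebraic F M] [CommRing R] [Field N]

theorem C0_of_KK {ι : R →+* A} {j : N →+* M} {T : N} {d : Pt F A M} {W : ValuationSubring N}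
    {O : ValuationSubring (KK d)} (h1 : ∀ a : R, algebraMap A (KK d) (ι a) ∈ O)
    (h2 : algebraMap M (KK d) (j T) ∉ O)
    (h3 : ∀ x : N, algebraMap M (KK d) (j x) ∈ O ↔ x ∈ W) : C0 ι j T d W :=
  C0_of_hom (φ := toKK d) (fun _ => toKK_eq_zero_iff d) (O := O)
    ⟨h1, h2, SetLike.ext h3⟩

end Abs

variable {C : Type u} {kb : Type v} {N : Type w}
  [NontriviallyNormedField C] [IsUltrametricDist C] [CompleteSpace C] [IsAlgClosed C] [CharZero C]
  [Field kb] [IsAlgClosed kb] [Field N] [Algebra kb C] [Algebra kb N] [TrdegOne kb N]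

theorem cont_of_cont63 {T : N} [Fact (Transcendental kb T)] {d : DT C kb N T}
    {W : ValuationSubring N} (h : P025H63.Cont d W) : P025H361.Cont d W := by
  obtain ⟨O, h1, h2, h3⟩ := h
  exact C0_of_KK (ι := a2 C) (j := algebraMap N (NCT C kb N T)) (O := O)
    (fun a => h1 (a2 C a) a.2) h2 h3

/-- **ROW 2e** -/
theorem row2e (T : N) (hT : Transcendental kb T) (F : Finset N) : ∃ R : ℝ, ∀ c : kb,
      R ≤ ‖algebraMap kb C c‖ → ∀ (T' : N) [Fact (Transcendental kb T')],
      T' * algebraMap kb N c = T → ∀ (d : DT C kb N T') (W W' : ValuationSubring N),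
      P025H63.Cont d W → P025H63.Cont d W' → ∀ x ∈ IntermediateField.adjoin kb (F : Set N),
        x ∈ W → x ∈ W' := by
  obtain ⟨R, hR⟩ := cont_level' (C := C) T hT F
  exact ⟨R, fun c hc T' _ hT' d W W' h h' => hR c hc T' hT' d W W' (cont_of_cont63 h)
    (cont_of_cont63 h')⟩

end P025H444
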