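import Vale.Agent.P025.R2.H444.TwoPoint
import Vale.Agent.P025.R2.H444.Est
import Vale.Agent.P025.R2.H63.NormT

/-!
P025, row A-UNIQ (helper444): the two point lemma without group actions on the residue fields.
-/

namespace P025H444

open P025H63

/-- a norm as an absolute value -/
noncomputable def toAV {K : Type*} [Field K] {v : K → ℝ} (h : IsNrm v) : AbsoluteValue K ℝ where
  toFun := v
  map_mul' := h.mul
  nonneg' := h.nonneg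
  eq_zero' x := by
    constructor
    · intro hx
      by_contra h0
      exact (h.pos x h0).ne' hx
    · rintro rfl
      exact h.zero
  add_le' x y := (h.add x y).trans (max_le_add_of_nonneg (h.nonneg x) (h.nonneg y))

theorem toAV_na {K : Type*} [Field K] {v : K → ℝ} (h : IsNrm v) : IsNonarchimedean (toAV h) :=
  h.add

/-- if `G^n` is near `1`, some `ζ G` is near `1` -/
theorem exists_near_root {kb K : Type*} [Field kb] [IsAlgClosed kb] [CharZero kb] [Field K]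
    (i : kb →+* K) {v : K → ℝ} (hv : IsNrm v) {n : ℕ} (hn : 0 < n) {ε : ℝ} (hε : 0 < ε) {G : K}
    (hG : v (G ^ n - 1) < ε ^ n) : ∃ ζ : kb, ζ ^ n = 1 ∧ v (i ζ * G - 1) < ε := by
  classical
  have hnz : NeZero (n : kb) := ⟨Nat.cast_ne_zero.mpr hn.ne'⟩
  obtain ⟨ξ, hξ⟩ := HasEnoughRootsOfUnity.exists_primitiveRoot kb n
  have hprod : (Polynomial.X ^ n - 1 : Polynomial kb) =
      ∏ ζ ∈ Polynomial.nthRootsFinset n (1 : kb), (Polynomial.X - Polynomial.C ζ) :=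
    Polynomial.X_pow_sub_one_eq_prod hn hξ
  have h1 : G ^ n - 1 = ∏ ζ ∈ Polynomial.nthRootsFinset n (1 : kb), (G - i ζ) := by
    have h2 := congrArg (Polynomial.eval₂ i G) hprod
    rw [Polynomial.eval₂_finsetProd] at h2
    simpa using h2
  have hcard : (Polynomial.nthRootsFinset n (1 : kb)).card = n := hξ.card_nthRootsFinset
  by_contra hcon
  push Not at hcon
  have hroot : ∀ ζ ∈ Polynomial.nthRootsFinset n (1 : kb), ζ ^ n = 1 := by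
    intro ζ hζ
    exact (Polynomial.mem_nthRootsFinset hn (1 : kb)).mp hζ
  have hroot1 : ∀ ζ : kb, ζ ^ n = 1 → v (i ζ) = 1 := by
    intro ζ hζ
    have h3 : v (i ζ) ^ n = 1 := by rw [← hv.pow, ← map_pow, hζ, map_one, hv.one]
    exact (pow_eq_one_iff_of_nonneg (hv.nonneg _) hn.ne').mp h3
  have h4 : ∀ ζ ∈ Polynomial.nthRootsFinset n (1 : kb), ε ≤ v (G - i ζ) := by
    intro ζ hζ
    have hζn := hroot ζ hζ
    have hζ0 : ζ ≠ 0 := by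
      rintro rfl
      rw [zero_pow hn.ne'] at hζn
      exact zero_ne_one hζn
    have h5 := hcon ζ⁻¹ (by rw [inv_pow, hζn, inv_one])
    have h6 : i ζ⁻¹ * G - 1 = i ζ⁻¹ * (G - i ζ) := by
      rw [mul_sub, ← map_mul, inv_mul_cancel₀ hζ0, map_one]
    rw [h6, hv.mul, hroot1 _ (by rw [inv_pow, hζn, inv_one]), one_mul] at h5
    exact h5
  have h7 : ε ^ n ≤ v (G ^ n - 1) := by
    rw [h1, hv.prod]
    calc ε ^ n = ∏ _ζ ∈ Polynomial.nthRootsFinset n (1 : kb), ε := by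
          rw [Finset.prod_const, hcard]
      _ ≤ _ := Finset.prod_le_prod (fun _ _ => hε.le) h4
  exact absurd hG (not_lt.mpr h7)

section TwoPoint

variable {H : Type*} [Group H] {kb R K₁ K₂ : Type*} [Field kb] [CommRing R] [Field K₁] [Field K₂]
  [MulSemiringAction H kb] [MulSemiringAction H R]

/-- the character of `G` computed in `K₁` -/
theorem char_eq [IsAlgClosed kb] (i : kb →+* R) (j : R →+* K₁) (σ : H → K₁ →+* K₁)
    (hi : ∀ (s : H) (x : kb), i (s • x) = s • i x)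
    (hj : ∀ (s : H) (x : R), j (s • x) = σ s (j x))
    {G : R} {g : K₁} (hg : ∀ s : H, σ s g = g)
    {z ζ : kb} (hz : j (i z) = j G / g) (s : H) (hζ : j (s • G) = j (i ζ * G)) :
    s • z = ζ * z := by
  apply (j.comp i).injective
  rw [map_mul]
  have e1 : (j.comp i) (s • z) = σ s (j G / g) := by
    rw [← hz]
    show j (i (s • z)) = σ s (j (i z))
    rw [hi, hj]
  rw [e1, map_div₀, hg, ← hj, hζ, map_mul]
  show j (i ζ) * j G / g = j (i ζ) * j (i z)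
  rw [hz, mul_div_assoc]

/-- the two point lemma, ring version: `j₁`, `j₂` have the same kernel -/
theorem two_point' [IsAlgClosed kb] (i : kb →+* R) (j₁ : R →+* K₁) (j₂ : R →+* K₂)
    (σ₁ : H → K₁ →+* K₁) (σ₂ : H → K₂ →+* K₂)
    (hi : ∀ (s : H) (x : kb), i (s • x) = s • i x)
    (hj₁ : ∀ (s : H) (x : R), j₁ (s • x) = σ₁ s (j₁ x))
    (hj₂ : ∀ (s : H) (x : R), j₂ (s • x) = σ₂ s (j₂ x))
    (hker : ∀ x, j₁ x = 0 → j₂ x = 0)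
    {n : ℕ} (hn : 0 < n) {G : R} (hG : ∀ s : H, j₁ (s • (G ^ n)) = j₁ (G ^ n))
    {c₁ c₂ : kb} (hc₁ : c₁ ≠ 0) (hc₂ : c₂ ≠ 0) {g₁ : K₁} {g₂ : K₂}
    (hg₁0 : g₁ ≠ 0) (hg₂0 : g₂ ≠ 0)
    (hg₁ : ∀ s : H, σ₁ s g₁ = g₁) (hg₂ : ∀ s : H, σ₂ s g₂ = g₂)
    (h₁ : j₁ (G ^ n) = j₁ (i c₁) * g₁ ^ n) (h₂ : j₂ (G ^ n) = j₂ (i c₂) * g₂ ^ n) :
    ∃ u : kb, (∀ s : H, s • u = u) ∧ u ^ n * c₂ = c₁ := by
  have hic : ∀ c : kb, c ≠ 0 → j₁ (i c) ≠ 0 := fun c hc => by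
    have : (j₁.comp i) c ≠ 0 := (map_ne_zero _).mpr hc
    exact this
  have hG0 : j₁ G ≠ 0 := by
    intro h0
    rw [map_pow, h0, zero_pow hn.ne'] at h₁
    exact mul_ne_zero (hic c₁ hc₁) (pow_ne_zero _ hg₁0) h₁.symm
  obtain ⟨z₁, hz₁, hz₁'⟩ := exists_const (j₁.comp i) hn hc₁ (y := j₁ G / g₁) (by
    rw [div_pow, ← map_pow, h₁, mul_div_cancel_right₀ _ (pow_ne_zero _ hg₁0)]; rfl)
  obtain ⟨z₂, hz₂, hz₂'⟩ := exists_const (j₂.comp i) hn hc₂ (y := j₂ G / g₂) (by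
    rw [div_pow, ← map_pow, h₂, mul_div_cancel_right₀ _ (pow_ne_zero _ hg₂0)]; rfl)
  have hz₁0 : z₁ ≠ 0 := by
    rintro rfl; rw [zero_pow hn.ne'] at hz₁; exact hc₁ hz₁.symm
  have hz₂0 : z₂ ≠ 0 := by
    rintro rfl; rw [zero_pow hn.ne'] at hz₂; exact hc₂ hz₂.symm
  have key : ∀ s : H, (s • z₁) * z₂ = (s • z₂) * z₁ := by
    intro s
    have hsG : j₁ ((s • G) ^ n) = j₁ (G ^ n) := by rw [← smul_pow', hG]
    have hr : (j₁ (s • G) / j₁ G) ^ n = (j₁.comp i) 1 := by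
      rw [div_pow, ← map_pow, ← map_pow, hsG, map_pow, div_self (pow_ne_zero _ hG0), map_one]
    obtain ⟨ζ, -, hζ'⟩ := exists_const (j₁.comp i) hn one_ne_zero hr
    have hsG₁ : j₁ (s • G) = j₁ (i ζ * G) := by
      have : j₁ (i ζ) = j₁ (s • G) / j₁ G := hζ'
      rw [map_mul, this, div_mul_cancel₀ _ hG0]
    have hsG₂ : j₂ (s • G) = j₂ (i ζ * G) := by
      rw [← sub_eq_zero, ← map_sub]
      apply hker
      rw [map_sub, hsG₁, sub_self]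
    have e₁ : s • z₁ = ζ * z₁ := char_eq i j₁ σ₁ hi hj₁ hg₁ hz₁' s hsG₁
    have e₂ : s • z₂ = ζ * z₂ := char_eq i j₂ σ₂ hi hj₂ hg₂ hz₂' s hsG₂
    rw [e₁, e₂]; ring
  refine ⟨z₁ / z₂, fun s => ?_, ?_⟩
  · rw [div_eq_mul_inv, smul_mul', smul_inv₀', ← div_eq_mul_inv, ← div_eq_mul_inv]
    have hs0 : s • z₂ ≠ 0 := by rwa [Ne, smul_eq_zero_iff_eq]
    rw [div_eq_div_iff hs0 hz₂0, key s, mul_comm]
  · rw [div_pow, hz₁, hz₂, div_mul_cancel₀ _ hc₂]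

/-- step (iii) of A3: `f = G^n` in `R`, near `1` at `K₁`, near `c⁻¹` at `K₂` -/
theorem two_point_near [IsAlgClosed kb] [CharZero kb] (i : kb →+* R) (j₁ : R →+* K₁)
    (j₂ : R →+* K₂) (σ₁ : H → K₁ →+* K₁) (σ₂ : H → K₂ →+* K₂) {v₁ : K₁ → ℝ} {v₂ : K₂ → ℝ}
    (h₁ : IsNrm v₁) (h₂ : IsNrm v₂) (hv₁ : ∀ s x, v₁ (σ₁ s x) = v₁ x)
    (hv₂ : ∀ s x, v₂ (σ₂ s x) = v₂ x)
    (hi : ∀ (s : H) (x : kb), i (s • x) = s • i x)
    (hj₁ : ∀ (s : H) (x : R), j₁ (s • x) = σ₁ s (j₁ x))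
    (hj₂ : ∀ (s : H) (x : R), j₂ (s • x) = σ₂ s (j₂ x))
    (hker : ∀ x, j₁ x = 0 → j₂ x = 0)
    {n : ℕ} (hn : 0 < n) {G : R} (hG : ∀ s : H, j₁ (s • (G ^ n)) = j₁ (G ^ n))
    {c : kb} (hc : c ≠ 0) (hcH : ∀ s : H, s • c = c) {ε : ℝ} (hε : 0 < ε)
    (hε₁ : ε ≤ v₁ (n : K₁)) (hε₂ : ε ≤ v₂ (n : K₂))
    (e₁ : v₁ (j₁ (G ^ n) - 1) < ε ^ n) (e₂ : v₂ (j₂ (G ^ n) * j₂ (i c) - 1) < ε ^ n) :
    ∃ u : kb, (∀ s : H, s • u = u) ∧ u ^ n = c := by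
  have hG₂ : ∀ s : H, j₂ (s • (G ^ n)) = j₂ (G ^ n) := fun s => by
    rw [← sub_eq_zero, ← map_sub]
    apply hker
    rw [map_sub, hG s, sub_self]
  -- the first root
  obtain ⟨ζ₁, hζ₁, hζ₁'⟩ := exists_near_root (j₁.comp i) h₁ hn hε (G := j₁ G) (by
    rw [← map_pow]; exact e₁)
  set g₁ : K₁ := (j₁.comp i) ζ₁ * j₁ G with hg₁
  have hg₁n : g₁ ^ n = j₁ (G ^ n) := by
    rw [hg₁, mul_pow, ← map_pow, hζ₁, map_one, one_mul, map_pow]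
  have hg₁0 : g₁ ≠ 0 := by
    intro h0
    rw [h0, zero_sub, h₁.neg, h₁.one] at hζ₁'
    have := abv_natCast_le_one (toAV h₁) (toAV_na h₁) n
    exact absurd (hζ₁'.trans_le (hε₁.trans this)) (lt_irrefl _)
  have hg₁f : ∀ s : H, σ₁ s g₁ = g₁ := fun s =>
    root_fixed (toAV h₁) (toAV_na h₁) (n := n) (hζ₁'.trans_le hε₁) (σ₁ s) (hv₁ s) (by
      rw [hg₁n, ← hj₁, hG])
  -- the second root
  obtain ⟨ϖ, hϖ⟩ := IsAlgClosed.exists_pow_nat_eq c hn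
  obtain ⟨ζ₂, hζ₂, hζ₂'⟩ := exists_near_root (j₂.comp i) h₂ hn hε (G := j₂ G * j₂ (i ϖ)) (by
    rw [mul_pow, ← map_pow, ← map_pow, ← map_pow, hϖ]; exact e₂)
  set g₂ : K₂ := (j₂.comp i) ζ₂ * (j₂ G * j₂ (i ϖ)) with hg₂
  have hg₂n : g₂ ^ n = j₂ (G ^ n) * j₂ (i c) := by
    rw [hg₂, mul_pow, ← map_pow, hζ₂, map_one, one_mul, mul_pow, ← map_pow, ← map_pow, ← map_pow,
      hϖ]
  have hg₂0 : g₂ ≠ 0 := by
    intro h0
    rw [h0, zero_sub, h₂.neg, h₂.one] at hζ₂'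
    have := abv_natCast_le_one (toAV h₂) (toAV_na h₂) n
    exact absurd (hζ₂'.trans_le (hε₂.trans this)) (lt_irrefl _)
  have hg₂f : ∀ s : H, σ₂ s g₂ = g₂ := fun s =>
    root_fixed (toAV h₂) (toAV_na h₂) (n := n) (hζ₂'.trans_le hε₂) (σ₂ s) (hv₂ s) (by
      rw [hg₂n, map_mul, ← hj₂, ← hj₂, hG₂, ← hi, hcH])
  have hc0 : j₂ (i c) ≠ 0 := by
    have : (j₂.comp i) c ≠ 0 := (map_ne_zero _).mpr hc
    exact this
  obtain ⟨u, hu, hu'⟩ := two_point' i j₁ j₂ σ₁ σ₂ hi hj₁ hj₂ hker hn hG (c₁ := 1)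
    (c₂ := c⁻¹) one_ne_zero (inv_ne_zero hc) hg₁0 hg₂0 hg₁f hg₂f
    (by rw [map_one, map_one, one_mul, hg₁n]) (by
      have e3 : j₂ (i c⁻¹) = (j₂ (i c))⁻¹ := map_inv₀ (j₂.comp i) c
      rw [hg₂n, e3, mul_comm (j₂ (G ^ n)), inv_mul_cancel_left₀ hc0])
  refine ⟨u, hu, ?_⟩
  rw [← div_eq_mul_inv, div_eq_one_iff_eq hc] at hu'
  exact hu'

end TwoPoint

end P025H444
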