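import Vale.Agent.P025.R2.H444.DFix
import Vale.Agent.P025.R2.H444.TwoPt
import Vale.Agent.P025.R2.H505.Exist

/-!
P025, row A-UNIQ (helper444): A3, the assembly.  `EdgeData` collects what is needed about one
edge fixed by `H` (its residue field with norm, action of `H`, evaluation homomorphisms).
-/

set_option linter.unusedSectionVars false

namespace P025H444

open scoped TensorProduct
open Polynomial P025H373 P025H544 P025H505 P025H720 P025H63

universe u v w x

theorem dense_norm {kb : Type*} [Field kb] [IsAlgClosed kb] {v : kb → ℝ} (hv0 : ∀ x, 0 ≤ v x)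
    (hpow : ∀ (x : kb) (n : ℕ), v (x ^ n) = v x ^ n) (hinv : ∀ x, v x⁻¹ = (v x)⁻¹)
    {π : kb} (hπ0 : 0 < v π) (hπ1 : v π < 1) (a b : ℝ) (ha : 0 ≤ a) (hab : a < b) :
    ∃ c : kb, a < v c ∧ v c < b := by
  -- replace `a` by a positive number
  obtain ⟨a', ha', haa', ha'b⟩ : ∃ a' : ℝ, 0 < a' ∧ a ≤ a' ∧ a' < b := by
    refine ⟨(a + b) / 2, by linarith, by linarith, by linarith⟩
  have hb : 0 < b := ha'.trans ha'b
  have hlog : Real.log (v π) < 0 := Real.log_neg hπ0 hπ1
  have h1 : Real.log b / Real.log (v π) < Real.log a' / Real.log (v π) := by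
    rw [div_lt_div_right_of_neg hlog]
    exact Real.log_lt_log ha' ha'b
  obtain ⟨s, hs1, hs2⟩ := exists_rat_btwn h1
  -- the power
  have hzpow : ∀ m : ℤ, v (π ^ m) = v π ^ m := by
    intro m
    cases m with
    | ofNat n => simpa using hpow π n
    | negSucc n => rw [zpow_negSucc, zpow_negSucc, hinv, hpow]
  obtain ⟨c, hc⟩ := IsAlgClosed.exists_pow_nat_eq (π ^ s.num) (Nat.pos_of_ne_zero s.den_nz)
  have hcv : v c ^ s.den = v π ^ s.num := by rw [← hpow, hc, hzpow]
  have hc0 : 0 < v c := by
    rcases (hv0 c).lt_or_eq with h | h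
    · exact h
    · rw [← h, zero_pow s.den_nz] at hcv
      exact absurd hcv (zpow_pos hπ0 _).ne
  have hden : (0 : ℝ) < s.den := by exact_mod_cast Nat.pos_of_ne_zero s.den_nz
  have hlogc : Real.log (v c) = s * Real.log (v π) := by
    have h2 := congrArg Real.log hcv
    rw [Real.log_pow, Real.log_zpow] at h2
    have h3 : (s : ℝ) = s.num / s.den := by
      conv_lhs => rw [← Rat.num_div_den s]
      push_cast
      rfl
    rw [h3, div_mul_eq_mul_div, ← h2, mul_div_assoc, mul_div_cancel₀]
    exact hden.ne'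
  refine ⟨c, haa'.trans_lt ?_, ?_⟩
  · rw [← Real.log_lt_log_iff ha' hc0, hlogc]
    rw [lt_div_iff_of_neg hlog] at hs2
    exact hs2
  · rw [← Real.log_lt_log_iff hc0 hb, hlogc]
    rw [div_lt_iff_of_neg hlog] at hs1
    exact hs1

/-- the quotient of the two factors is a unit at all places where `t` is regular -/
theorem val_div {K Γ : Type*} [Field K] [LinearOrderedCommGroupWithZero Γ] (v : Valuation K Γ)
    {A B t : K} (hAB : v (A - B) = 1) (ht : v t ≤ 1) (h : A * B * t = 1) : v (A / B) = 1 := by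
  have h1 : v A * v B * v t = 1 := by rw [← map_mul, ← map_mul, h, map_one]
  have hne : v A * v B ≥ 1 := by
    by_contra hcon
    push Not at hcon
    have h2 : v A * v B * v t < 1 := by
      calc v A * v B * v t ≤ v A * v B * 1 := mul_le_mul_right ht _
        _ = v A * v B := mul_one _
        _ < 1 := hcon
    exact absurd h1 h2.ne
  have hkey : v A = v B := by
    rcases lt_trichotomy (v A) (v B) with hlt | heq | hgt
    · exfalso
      have h3 : v (A - B) = v B := Valuation.map_sub_eq_of_lt_right v hlt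
      rw [hAB] at h3
      rw [← h3] at hlt hne
      rw [mul_one] at hne
      exact absurd hlt (not_lt.mpr hne)
    · exact heq
    · exfalso
      have h3 : v (A - B) = v A := Valuation.map_sub_eq_of_lt_left v hgt
      rw [hAB] at h3
      rw [← h3] at hgt hne
      rw [one_mul] at hne
      exact absurd hgt (not_lt.mpr hne)
  rw [map_div₀, hkey, div_self]
  intro h0
  rw [hkey, h0, zero_mul, zero_mul] at h1
  exact zero_ne_one h1

section Smith

variable {q : ℕ} [hq : Fact q.Prime] {P V D E : Type*} [Group P]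
  [TopologicalSpace P] [IsTopologicalGroup P] [CompactSpace P] [TotallyDisconnectedSpace P]
  [TopologicalSpace V] [CompactSpace V] [T2Space V] [TotallyDisconnectedSpace V]
  [TopologicalSpace D] [CompactSpace D] [T2Space D] [TotallyDisconnectedSpace D]
  [TopologicalSpace E] [CompactSpace E] [T2Space E] [TotallyDisconnectedSpace E]
  [MulAction P V] [ContinuousSMul P V] [MulAction P D] [ContinuousSMul P D]
  [MulAction P E] [ContinuousSMul P E]

/-- Smith theory when a vertex is fixed -/
theorem fixConn_of_fixed {v : E → V} {d : E → D} (hvc : Continuous v)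
    (hdc : Continuous d) (hv : ∀ (g : P) (e : E), v (g • e) = g • v e)
    (hd : ∀ (g : P) (e : E), d (g • e) = g • d e) (hex : GraphExact q v d)
    (hpro : ∀ U : Subgroup P, U.Normal → IsOpen (U : Set P) → ∃ n : ℕ, U.index = q ^ n)
    {x : V} (hx : ∀ g : P, g • x = x) : FixConn q P v d := by
  refine P025H970.smith_pro q hvc hdc (fun g e => hv g e) (fun g e => hd g e) ?_
    {U : Subgroup P | U.Normal ∧ IsOpen (U : Set P)} ?_ ?_ ?_ ?_
  · refine ⟨hex.nonempty, fun f g hf hg hfg => ?_⟩
    exact hex.const ⟨f, hf⟩ ⟨g, hg⟩ hfg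
  · intro O hO
    obtain ⟨O', hO', hO'o, h1⟩ := mem_nhds_iff.1 hO
    obtain ⟨H, hH⟩ := ProfiniteGrp.exist_openNormalSubgroup_sub_open_nhds_of_one hO'o h1
    exact ⟨H.toSubgroup, ⟨H.isNormal', H.isOpen'⟩, hH.trans hO'⟩
  · rintro U ⟨h1, h2⟩
    exact ⟨h1, U.isClosed_of_isOpen h2, h2.mem_nhds U.one_mem⟩
  · rintro U ⟨h1, h2⟩
    exact hpro U h1 h2
  · rintro U ⟨h1, h2⟩ h hh hU
    obtain ⟨α, β, hαβ⟩ := hex.surj ⟨h, hh⟩
    have hαβ' : ∀ e, h e = α (v e) - β (d e) := hαβ
    have key : ∀ u ∈ U, (∀ x, α (u • x) = α x) ∧ ∀ y, β (u • y) = β y := fun u hu => by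
      obtain ⟨c, hc⟩ := exists_obst hex hv hd (g := u) (α := α) (β := β)
        (fun e => by rw [← hαβ', ← hαβ']; exact hU u hu e)
      have hc0 : c = 0 := hc.eq_zero_of_fix_left (hx u)
      rw [hc0] at hc
      exact ⟨fun x => by simpa using hc.1 x, fun x => by simpa using hc.2 x⟩
    exact ⟨α, β, α.isLocallyConstant, β.isLocallyConstant, fun u hu => (key u hu).1,
      fun u hu => (key u hu).2, hαβ'⟩

end Smith

/-- what is needed about one edge fixed by `H` -/
structure EdgeData (H : Type*) [Group H] [TopologicalSpace H] (C : Type u) (kb : Type v)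
    (N : Type w) [NontriviallyNormedField C] [IsUltrametricDist C] [CompleteSpace C]
    [IsAlgClosed C] [CharZero C] [Field kb] [IsAlgClosed kb] [Field N] [Algebra kb C]
    [Algebra kb N] [MulSemiringAction H kb] [MulSemiringAction H C] [MulSemiringAction H N]
    [NormAct H C] [Equi H kb C] [Equi H kb N] (K : Type*) [Field K] where
  /-- the norm -/
  nrm : K → ℝ
  isNrm : IsNrm nrm
  /-- the action of `H` -/
  act : H → K →+* K
  nrm_act : ∀ s x, nrm (act s x) = nrm x
  /-- the embedding of `N` -/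
  emb : N →+* K
  emb_smul : ∀ (s : H) (x : N), emb (s • x) = act s (emb x)
  nrm_const : ∀ c : kb, nrm (emb (algebraMap kb N c)) = ‖algebraMap kb C c‖
  /-- evaluation of the functions on `|T| ≤ 1` -/
  ev : ∀ (T : N) [Fact (Transcendental kb T)], nrm (emb T) ≤ 1 →
    (F1 C ⊗[RatFunc C] NCT C kb N T →+* K)
  ev_emb : ∀ (T : N) [Fact (Transcendental kb T)] (h : nrm (emb T) ≤ 1) (x : N),
    ev T h (iN C kb (F1 C) T x) = emb x
  ev_smul : ∀ (T : N) [Fact (Transcendental kb T)] [FixedT H T] (h : nrm (emb T) ≤ 1) (s : H)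
    (z : F1 C ⊗[RatFunc C] NCT C kb N T), ev T h (actHom (RatFunc C) (F1 C) (NCT C kb N T) s z) = act s (ev T h z)

end P025H444
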