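import Vale.Agent.P025.R2.H444.Uniq

/-!
P025, row A-UNIQ (helper444): A3, the assembly.
-/

set_option linter.unusedSectionVars false

namespace P025H444

open scoped TensorProduct
open Polynomial P025H373 P025H544 P025H505 P025H720 P025H63

universe u v w x

section

variable (H : Type*) [Group H] [TopologicalSpace H] [IsTopologicalGroup H] [CompactSpace H]
  [TotallyDisconnectedSpace H]
  (C : Type u) (kb : Type v) (N : Type w)
  [NontriviallyNormedField C] [IsUltrametricDist C] [CompleteSpace C] [IsAlgClosed C] [CharZero C]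
  [Field kb] [IsAlgClosed kb] [Field N] [Algebra kb C] [Algebra kb N] [TrdegOne kb N]
  [MulSemiringAction H kb] [MulSemiringAction H C] [MulSemiringAction H N]
  [NormAct H C] [OpenStab H N] [Equi H kb C] [Equi H kb N]

/-- A2.2 in the form used here: an element `x` of `N` such that `x` and `x⁻¹` are integral over
`kb[T]` is an `n`-th power in the residue field of every `v` in `V_T`. -/
def UnitRoot (n : ℕ) : Prop :=
  ∀ (T : N) [Fact (Transcendental kb T)] (x : N), x ≠ 0 →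
    IsIntegral (Algebra.adjoin kb {T}) x → IsIntegral (Algebra.adjoin kb {T}) x⁻¹ →
    ∀ v : VT C kb N T, ∃ y : F1 C ⊗[RatFunc C] NCT C kb N T,
      y ^ n - iN C kb (F1 C) T x ∈ v.asIdeal

theorem isIntegral_quad {R M : Type*} [CommRing R] [CommRing M] [Algebra R M] {x : M} (a b : R)
    (h : x ^ 2 + (algebraMap R M a * x + algebraMap R M b) = 0) : IsIntegral R x := by
  refine ⟨X ^ 2 + (Polynomial.C a * X + Polynomial.C b), ?_, ?_⟩
  · exact monic_X_pow_add degree_linear_lt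
  · simpa using h

theorem finite_orbit {H : Type*} [Group H] [TopologicalSpace H] [IsTopologicalGroup H]
    [CompactSpace H] {N : Type*} [MulAction H N] [OpenStab H N] (x : N) :
    (MulAction.orbit H x).Finite := by
  have h1 : Finite (H ⧸ MulAction.stabilizer H x) :=
    Subgroup.quotient_finite_of_isOpen _ (OpenStab.isOpen x)
  have h2 : Finite (MulAction.orbit H x) :=
    Finite.of_equiv _ (MulAction.orbitEquivQuotientStabilizer H x).symm
  exact Set.toFinite _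

variable {H C kb N}

/-- the point of `V_T` below an edge -/
noncomputable def EdgeData.pt {K : Type x} [Field K] (E : EdgeData H C kb N K) (T : N)
    [Fact (Transcendental kb T)] (h : E.nrm (E.emb T) ≤ 1) : VT C kb N T :=
  ⟨RingHom.ker (E.ev T h), RingHom.ker_isPrime _⟩

theorem EdgeData.mem_pt {K : Type x} [Field K] (E : EdgeData H C kb N K) (T : N)
    [Fact (Transcendental kb T)] (h : E.nrm (E.emb T) ≤ 1)
    (z : F1 C ⊗[RatFunc C] NCT C kb N T) : z ∈ (E.pt T h).asIdeal ↔ E.ev T h z = 0 := Iff.rfl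

theorem EdgeData.pt_fixed {K : Type x} [Field K] (E : EdgeData H C kb N K) (T : N)
    [Fact (Transcendental kb T)] [FixedT H T] (h : E.nrm (E.emb T) ≤ 1) (s : H) :
    s • E.pt T h = E.pt T h := by
  apply PrimeSpectrum.ext
  ext z
  rw [mem_smul_iff]
  show actHom (RatFunc C) (F1 C) (NCT C kb N T) s⁻¹ z ∈ (E.pt T h).asIdeal ↔ _
  rw [E.mem_pt, E.mem_pt, E.ev_smul, map_eq_zero]

/-- the function `T₁` is transcendental -/
theorem transcendental_of {T : N} (h : ∀ c : kb, algebraMap kb N c ≠ T) : Transcendental kb T := by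
  intro halg
  have h1 : Algebra.IsAlgebraic kb (IntermediateField.adjoin kb {T}) :=
    IntermediateField.isAlgebraic_adjoin_simple (isAlgebraic_iff_isIntegral.mp halg)
  have h2 : Algebra.IsIntegral kb (IntermediateField.adjoin kb {T}) := inferInstance
  obtain ⟨c, hc⟩ := (IsAlgClosed.algebraMap_bijective_of_isIntegral (k := kb)
    (K := IntermediateField.adjoin kb {T})).2 ⟨T, IntermediateField.mem_adjoin_simple_self kb T⟩
  exact h c (congrArg Subtype.val hc)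

theorem actHom_iN (F : Type*) [Field F] [Algebra (RatFunc C) F] [MulSemiringAction H F]
    [Equi H (RatFunc C) F] (T : N) [Fact (Transcendental kb T)] [FixedT H T] (g : H) (x : N) :
    actHom (RatFunc C) F (NCT C kb N T) g (iN C kb F T x) = iN C kb F T (g • x) :=
  smul_iN H C kb F T g x

theorem isNrm_comp {N K : Type*} [Field N] [Field K] {v : K → ℝ} (h : IsNrm v) (f : N →+* K) :
    IsNrm (fun x => v (f x)) where
  zero := by simp only [map_zero, h.zero]
  one := by simp only [map_one, h.one]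
  mul x y := by simp only [map_mul, h.mul]
  add x y := by
    show v (f (x + y)) ≤ max (v (f x)) (v (f y))
    rw [map_add]
    exact h.add _ _
  pos x hx := h.pos _ ((_root_.map_ne_zero f).mpr hx)

/-- **A3**, for two `EdgeData`: the norms on `N` agree. -/
theorem edge_core {q : ℕ} [hq : Fact q.Prime]
    (hpro : ∀ U : Subgroup H, U.Normal → IsOpen (U : Set H) → ∃ n : ℕ, U.index = q ^ n)
    {π : kb} (hπH : ∀ g : H, g • π = π) (hπ0 : π ≠ 0) (hπ1 : ‖algebraMap kb C π‖ < 1)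
    (hval : ∀ u : kb, (∀ g : H, g • u = u) → ‖algebraMap kb C u‖ ^ q ≠ ‖algebraMap kb C π‖)
    (hex : ∀ (T : N) [Fact (Transcendental kb T)],
      GraphExact q (toV C kb N T) (toD C kb N T))
    (hdiv : UnitRoot C kb N (q ^ 2))
    {K₁ : Type*} {K₂ : Type*} [Field K₁] [Field K₂] (E₁ : EdgeData H C kb N K₁)
    (E₂ : EdgeData H C kb N K₂) :
    (fun x => E₁.nrm (E₁.emb x)) = fun x => E₂.nrm (E₂.emb x) := by
  by_contra hne
  have hq0 : 0 < q := hq.out.pos
  have hN₁ : IsNrm (fun x => E₁.nrm (E₁.emb x)) := isNrm_comp E₁.isNrm E₁.emb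
  have hN₂ : IsNrm (fun x => E₂.nrm (E₂.emb x)) := isNrm_comp E₂.isNrm E₂.emb
  let _ : NormedField kb := NormedField.induced kb C (algebraMap kb C) (algebraMap kb C).injective
  have hnorm : ∀ c : kb, ‖c‖ = ‖algebraMap kb C c‖ := fun _ => rfl
  have hkb0 : CharZero kb := (algebraMap kb C).charZero
  have hπp : 0 < ‖π‖ := norm_pos_iff.mpr hπ0
  have hπ1' : ‖π‖ < 1 := hπ1
  -- the bounds
  have hn : 0 < q ^ 2 := pow_pos hq0 2
  obtain ⟨ε₀, hε₀⟩ : ∃ ε₀ : ℝ, ε₀ = ‖((q ^ 2 : ℕ) : C)‖ := ⟨_, rfl⟩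
  have hε₀p : 0 < ε₀ := hε₀ ▸ norm_pos_iff.mpr (Nat.cast_ne_zero.mpr hn.ne')
  have hnat₁ : ε₀ ≤ E₁.nrm ((q ^ 2 : ℕ) : K₁) := by
    have h1 : ((q ^ 2 : ℕ) : K₁) = E₁.emb (algebraMap kb N ((q ^ 2 : ℕ) : kb)) := by
      rw [map_natCast, map_natCast]
    rw [h1, E₁.nrm_const, map_natCast, hε₀]
  have hnat₂ : ε₀ ≤ E₂.nrm ((q ^ 2 : ℕ) : K₂) := by
    have h1 : ((q ^ 2 : ℕ) : K₂) = E₂.emb (algebraMap kb N ((q ^ 2 : ℕ) : kb)) := by
      rw [map_natCast, map_natCast]
    rw [h1, E₂.nrm_const, map_natCast, hε₀]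
  -- the function `T₁`
  obtain ⟨T₁, hT₁, hT11, hT12, hT1c, hA0, hB0, hAH, hBH, hf₁, hf₂, hP₁, hP₂⟩ :=
    P025H63.exists_sep (kb := kb) (H := H) hN₁ hN₂ E₁.nrm_const E₂.nrm_const
      (dense_norm (v := fun c : kb => ‖c‖) (fun _ => norm_nonneg _) (fun x n => norm_pow x n)
        (fun x => norm_inv x) hπp hπ1')
      (fun g x => by
        show E₁.nrm (E₁.emb (g • x)) = E₁.nrm (E₁.emb x)
        rw [E₁.emb_smul, E₁.nrm_act])
      (fun g x => by
        show E₂.nrm (E₂.emb (g • x)) = E₂.nrm (E₂.emb x)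
        rw [E₂.emb_smul, E₂.nrm_act])
      finite_orbit hne π hπ0 hπ1'
      (fun g => by rw [Equi.smul_algebraMap (G := H) (F := kb), hπH g])
      q 1 hq0 (ε₀ ^ (q ^ 2)) (pow_pos hε₀p _)
  obtain ⟨A, hA⟩ : ∃ A : N, A = T₁ ^ q - algebraMap kb N π ^ 1 := ⟨_, rfl⟩
  obtain ⟨B, hB⟩ : ∃ B : N, B = T₁ ^ q - algebraMap kb N π ^ (1 + q) := ⟨_, rfl⟩
  rw [← hA] at hA0 hAH hf₁ hf₂ hP₁ hP₂
  rw [← hB] at hB0 hBH hf₁ hf₂ hP₁ hP₂
  -- the roots
  have hαβ : π ^ 1 ≠ π ^ (1 + q) := by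
    intro h
    have h1 := congrArg (fun x : kb => ‖x‖) h
    simp only [norm_pow] at h1
    have h2 : ‖π‖ ^ (1 + q) < ‖π‖ ^ 1 := pow_lt_pow_right_of_lt_one₀ hπp hπ1' (by omega)
    exact absurd h1 h2.ne'
  obtain ⟨r, hr⟩ := exists_root_of_fixed_D (N := N) H C kb hq0.ne' (α := π ^ 1)
    (β := π ^ (1 + q)) (pow_ne_zero _ hπ0) (pow_ne_zero _ hπ0) hαβ
    (fun g => by rw [smul_pow', hπH]) (fun g => by rw [smul_pow', hπH])
  -- the constant `c`
  obtain ⟨m, hm⟩ := pow_unbounded_of_one_lt (max r (max 1 (‖π‖⁻¹ ^ (1 + (1 + q)))))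
    ((one_lt_inv₀ hπp).mpr hπ1')
  obtain ⟨c, hc⟩ : ∃ c : kb, c = π⁻¹ ^ m := ⟨_, rfl⟩
  have hcn : ‖c‖ = ‖π‖⁻¹ ^ m := by rw [hc, norm_pow, norm_inv]
  rw [← hcn] at hm
  have hcr : r < ‖c‖ := (le_max_left _ _).trans_lt hm
  have hc1 : 1 < ‖c‖ := (le_max_left _ _).trans_lt ((le_max_right _ _).trans_lt hm)
  have hc2 : ‖π‖⁻¹ ^ (1 + (1 + q)) < ‖c‖ :=
    (le_max_right _ _).trans_lt ((le_max_right _ _).trans_lt hm)
  have hc0 : c ≠ 0 := norm_pos_iff.mp (zero_lt_one.trans hc1)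
  have hcH : ∀ g : H, g • c = c := fun g => by rw [hc, smul_pow', smul_inv'', hπH]
  obtain ⟨T', hT'⟩ : ∃ T' : N, T' = (A * B)⁻¹ * (algebraMap kb N c)⁻¹ := ⟨_, rfl⟩
  have hc0' : algebraMap kb N c ≠ 0 := (_root_.map_ne_zero _).mpr hc0
  have heq : A * B * (algebraMap kb N c * T') = 1 := by
    rw [hT']
    field_simp
  -- `T'` is transcendental
  have hT₁tr : Transcendental kb T₁ := transcendental_of hT1c
  have hT'tr : Transcendental kb T' := by
    apply transcendental_of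
    intro e he
    apply hT₁tr
    refine ⟨(X ^ q - Polynomial.C (π ^ 1)) * (X ^ q - Polynomial.C (π ^ (1 + q))) *
      Polynomial.C (c * e) - 1, ?_, ?_⟩
    · intro h0
      obtain ⟨ϖ, hϖ⟩ := IsAlgClosed.exists_pow_nat_eq (π ^ 1) hq0
      have h1 := congrArg (Polynomial.eval ϖ) h0
      simp [hϖ] at h1
    · simp only [map_sub, map_mul, map_pow, map_one, Polynomial.aeval_X, Polynomial.aeval_C]
      rw [he, ← hA, ← hB, heq, sub_self]
  have : Fact (Transcendental kb T') := ⟨hT'tr⟩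
  have : FixedT H T' := ⟨fun g => by
    rw [hT', smul_mul', smul_inv'', smul_inv'', smul_mul', hAH, hBH,
      Equi.smul_algebraMap (G := H) (F := kb), hcH g]⟩
  -- the norms of `T'`
  have h₁ : E₁.nrm (E₁.emb T') ≤ 1 := by
    have h2 : E₁.nrm (E₁.emb T') = E₁.nrm (E₁.emb (A * B)⁻¹) * ‖c‖⁻¹ := by
      rw [hT', map_mul, E₁.isNrm.mul]
      congr 1
      rw [map_inv₀, E₁.isNrm.inv, E₁.nrm_const, hnorm]
    rw [h2]
    exact mul_le_one₀ hP₁.le (inv_nonneg.mpr (norm_nonneg _)) (inv_le_one_of_one_le₀ hc1.le)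
  have h₂ : E₂.nrm (E₂.emb T') ≤ 1 := by
    have h2 : E₂.nrm (E₂.emb T') = E₂.nrm (E₂.emb (A * B)⁻¹) * ‖c‖⁻¹ := by
      rw [hT', map_mul, E₂.isNrm.mul]
      congr 1
      rw [map_inv₀, E₂.isNrm.inv, E₂.nrm_const, hnorm]
    have h3 : E₂.nrm (E₂.emb (A * B)⁻¹) = ‖π‖⁻¹ ^ (1 + (1 + q)) := hP₂
    rw [h2, h3, ← div_eq_mul_inv, div_le_one (zero_lt_one.trans hc1)]
    exact hc2.le
  -- no fixed vertex in `D`
  have hnoD : ∀ d : DT C kb N T', ¬ ∀ g : H, g • d = d := by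
    intro d hd
    obtain ⟨u, hu, hu' | hu'⟩ := hr T' T₁ hT₁ c hcr (by
      rw [map_pow, map_pow, ← hA, ← hB]; exact heq) d hd
    · apply hval u hu
      rw [← norm_pow, ← map_pow, hu', pow_one]
    · apply hval (u / π) (fun g => by rw [smul_div₀', hu, hπH])
      rw [map_div₀, norm_div, div_pow, ← norm_pow, ← map_pow, hu', map_pow, norm_pow, pow_add,
        pow_one, mul_div_assoc, div_self, mul_one]
      exact pow_ne_zero _ hπp.ne'
  have hnoE : ∀ e e' : ET C kb N T', (∀ g : H, g • e = e) → (∀ g : H, g • e' = e') → e = e' := by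
    intro e _ he _
    exact absurd (fun g => by rw [← toD_smul, he g]) (hnoD (toD C kb N T' e))
  have hconn : FixConn q H (toV C kb N T') (toD C kb N T') :=
    fixConn_of_fixed (continuous_toV C kb N T') (continuous_toD C kb N T')
      (toV_smul H C kb N T') (toD_smul H C kb N T') (hex T') hpro (x := E₁.pt T' h₁)
      (E₁.pt_fixed T' h₁)
  have hpt : E₁.pt T' h₁ = E₂.pt T' h₂ :=
    hconn.unique_left (toV_smul H C kb N T') hnoE (E₁.pt_fixed T' h₁) (E₂.pt_fixed T' h₂)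
  have hker : ∀ z, E₁.ev T' h₁ z = 0 → E₂.ev T' h₂ z = 0 := by
    intro z hz
    rw [← E₁.mem_pt, hpt, E₂.mem_pt] at hz
    exact hz
  -- the root of `f`
  obtain ⟨Q, hQ⟩ : ∃ Q : Algebra.adjoin kb {T'}, (Q : N) = algebraMap kb N c * T' :=
    ⟨⟨_, (Algebra.adjoin kb {T'}).mul_mem ((Algebra.adjoin kb {T'}).algebraMap_mem c)
      (Algebra.subset_adjoin rfl)⟩, rfl⟩
  obtain ⟨δ, hδ⟩ : ∃ δ : Algebra.adjoin kb {T'}, (δ : N) = A - B := by
    have h3 : A - B = algebraMap kb N (π ^ (1 + q) - π ^ 1) := by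
      rw [hA, hB, map_sub, map_pow, map_pow]; ring
    rw [h3]
    exact ⟨⟨_, (Algebra.adjoin kb {T'}).algebraMap_mem _⟩, rfl⟩
  have halg : ∀ z : Algebra.adjoin kb {T'}, algebraMap (Algebra.adjoin kb {T'}) N z = (z : N) :=
    fun z => rfl
  have hQ' : (Q : N) = (A * B)⁻¹ := by
    rw [hQ]
    exact eq_inv_of_mul_eq_one_right heq
  have hAi : IsIntegral (Algebra.adjoin kb {T'}) A⁻¹ := by
    apply isIntegral_quad (δ * Q) (-Q)
    rw [map_mul, map_neg, halg, halg, hδ, hQ']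
    field_simp
    ring
  have hBi : IsIntegral (Algebra.adjoin kb {T'}) B⁻¹ := by
    apply isIntegral_quad (-(δ * Q)) (-Q)
    rw [map_neg, map_mul, map_neg, halg, halg, hδ, hQ']
    field_simp
    ring
  obtain ⟨y, hy⟩ := hdiv T' (A / B) (div_ne_zero hA0 hB0) (by
      have h3 : A / B = 1 + algebraMap (Algebra.adjoin kb {T'}) N δ * B⁻¹ := by
        rw [halg, hδ]; field_simp; ring
      rw [h3]
      exact isIntegral_one.add (isIntegral_algebraMap.mul hBi)) (by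
      have h3 : (A / B)⁻¹ = 1 - algebraMap (Algebra.adjoin kb {T'}) N δ * A⁻¹ := by
        rw [halg, hδ]; field_simp; ring
      rw [h3]
      exact isIntegral_one.sub (isIntegral_algebraMap.mul hAi)) (E₁.pt T' h₁)
  have hy₁ : E₁.ev T' h₁ (y ^ (q ^ 2)) = E₁.emb (A / B) := by
    rw [E₁.mem_pt, map_sub, E₁.ev_emb, sub_eq_zero] at hy
    exact hy
  have hy₂ : E₂.ev T' h₂ (y ^ (q ^ 2)) = E₂.emb (A / B) := by
    rw [hpt, E₂.mem_pt, map_sub, E₂.ev_emb, sub_eq_zero] at hy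
    exact hy
  have hyH : ∀ s : H, E₁.ev T' h₁ (actHom (RatFunc C) (F1 C) (NCT C kb N T') s (y ^ (q ^ 2))) =
      E₁.ev T' h₁ (y ^ (q ^ 2)) := by
    intro s
    rw [E₁.ev_smul, hy₁, ← E₁.emb_smul, smul_div₀', hAH, hBH]
  obtain ⟨u, hu, hu'⟩ := two_point_near (H := H) ((iN C kb (F1 C) T').comp (algebraMap kb N))
    (E₁.ev T' h₁) (E₂.ev T' h₂) E₁.act E₂.act E₁.isNrm E₂.isNrm E₁.nrm_act E₂.nrm_act
    (fun s x => by
      show iN C kb (F1 C) T' (algebraMap kb N (s • x)) =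
        actHom (RatFunc C) (F1 C) (NCT C kb N T') s (iN C kb (F1 C) T' (algebraMap kb N x))
      rw [actHom_iN, Equi.smul_algebraMap (G := H) (F := kb)])
    (fun s x => E₁.ev_smul T' h₁ s x) (fun s x => E₂.ev_smul T' h₂ s x) hker hn hyH
    (c := π ^ q) (pow_ne_zero _ hπ0) (fun s => by rw [smul_pow', hπH]) hε₀p hnat₁ hnat₂
    (by
      rw [hy₁]
      have h3 : E₁.emb (A / B) - 1 = E₁.emb (A / B - 1) := by rw [map_sub, map_one]
      rw [h3]
      exact hf₁)
    (by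
      have h4 : (E₂.ev T' h₂) (((iN C kb (F1 C) T').comp (algebraMap kb N)) (π ^ q)) =
          E₂.emb (algebraMap kb N π ^ q) := by
        rw [RingHom.comp_apply, E₂.ev_emb, map_pow]
      rw [hy₂, h4]
      have h3 : E₂.emb (A / B) * E₂.emb (algebraMap kb N π ^ q) - 1 =
          E₂.emb (A / B * algebraMap kb N π ^ q - 1) := by rw [map_sub, map_one, map_mul]
      rw [h3]
      exact hf₂)
  apply hval u hu
  have h5 := congrArg (fun z : kb => ‖z‖) hu'
  simp only [norm_pow] at h5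
  rw [pow_two, pow_mul] at h5
  exact (pow_left_inj₀ (pow_nonneg (norm_nonneg _) _) (norm_nonneg _) hq0.ne').mp h5

end

end P025H444
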