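import Vale.Agent.P025.R2.H444.Uniq2
import Vale.Agent.P025.R2.H720.Ret
import Vale.Agent.P025.R2.H63.UniqA
import Vale.Agent.P025.R2.H505.ExistK

/-!
P025, row A-UNIQ (helper444): A3, final form: edges of the tree of `T` fixed by a closed pro-`q`
group with the value condition are equal (hypothesis `hU` of `P025H505.exists_fixed_K`).
-/

set_option linter.unusedSectionVars false

namespace P025H444

open scoped TensorProduct
open Polynomial P025H373 P025H544 P025H505 P025H720 P025H63

universe u v w x y

section Edge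

variable {G : Type*} [Group G] [TopologicalSpace G]
  {C : Type u} {kb : Type v} {N : Type w}
  [NontriviallyNormedField C] [IsUltrametricDist C] [CompleteSpace C] [IsAlgClosed C] [CharZero C]
  [Field kb] [IsAlgClosed kb] [Field N] [Algebra kb C] [Algebra kb N] [TrdegOne kb N]
  [MulSemiringAction G kb] [MulSemiringAction G C] [MulSemiringAction G N]
  [NormAct G C] [Equi G kb C] [Equi G kb N]
  {T : N} [Fact (Transcendental kb T)] [FixedT G T]

/-- the data of a fixed edge -/
noncomputable def edgeData (w : ET C kb N T) [FixedT G w] : EdgeData G C kb N (KK w) where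
  nrm x := ‖x‖
  isNrm :=
    { zero := norm_zero
      one := norm_one
      mul := norm_mul
      add := IsUltrametricDist.norm_add_le_max
      pos := fun x hx => norm_pos_iff.mpr hx }
  act s := MulSemiringAction.toRingHom G (KK w) s
  nrm_act s x := norm_smul_kk w s x
  emb := nToKK w
  emb_smul s x := (smul_nToKK w s x).symm
  nrm_const c := by
    rw [← norm_cToKK w (algebraMap kb C c), cToKK_eq]
    show ‖algebraMap (NCT C kb N T) (KK w) (algebraMap N (NCT C kb N T) (algebraMap kb N c))‖ = _
    rw [← IsScalarTower.algebraMap_apply kb C (NCT C kb N T),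
      ← IsScalarTower.algebraMap_apply kb N (NCT C kb N T)]
  ev T1 _ h := retHom w T1 h
  ev_emb T1 _ h x := (retHom_one_tmul w T1 h _).trans (ncToKK_N w T1 x)
  ev_smul T1 _ _ h s z := retHom_smul w T1 h s z

end Edge

section Main

variable (H : Type*) [Group H] [TopologicalSpace H] [IsTopologicalGroup H] [CompactSpace H]
  [TotallyDisconnectedSpace H]
  (C : Type u) (kb : Type v) (N : Type w)
  [NontriviallyNormedField C] [IsUltrametricDist C] [CompleteSpace C] [IsAlgClosed C] [CharZero C]
  [Field kb] [IsAlgClosed kb] [Field N] [Algebra kb C] [Algebra kb N] [TrdegOne kb N]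
  [MulSemiringAction H kb] [MulSemiringAction H C] [MulSemiringAction H N]
  [NormAct H C] [OpenStab H N] [Equi H kb C] [Equi H kb N]

/-- **A3** for a pro-`q` group `H` -/
theorem edge_unique {q : ℕ} [hq : Fact q.Prime]
    (hpro : ∀ U : Subgroup H, U.Normal → IsOpen (U : Set H) → ∃ n : ℕ, U.index = q ^ n)
    {π : kb} (hπH : ∀ g : H, g • π = π) (hπ0 : π ≠ 0) (hπ1 : ‖algebraMap kb C π‖ < 1)
    (hval : ∀ u : kb, (∀ g : H, g • u = u) → ‖algebraMap kb C u‖ ^ q ≠ ‖algebraMap kb C π‖)
    (hex : ∀ (T : N) [Fact (Transcendental kb T)],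
      GraphExact q (toV C kb N T) (toD C kb N T))
    (hdiv : UnitRoot C kb N (q ^ 2)) (hd : DenseRange (algebraMap kb C))
    (T : N) [Fact (Transcendental kb T)] [FixedT H T] {e e' : ET C kb N T}
    (he : ∀ s : H, s • e = e) (he' : ∀ s : H, s • e' = e') : e = e' := by
  have : FixedT H e := ⟨he⟩
  have : FixedT H e' := ⟨he'⟩
  have h1 := edge_core hpro hπH hπ0 hπ1 hval hex hdiv (edgeData (G := H) e)
    (edgeData (G := H) e')
  exact edge_ext_of_norm hd e e' (fun x => congrFun h1 x)

end Main

section Sub

variable {G : Type x} [Group G] [TopologicalSpace G]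

theorem sub_NormAct (C : Type u) [NormedField C] [MulSemiringAction G C] [NormAct G C]
    (P : Subgroup G) : NormAct P C where
  norm_smul g c := NormAct.norm_smul (G := G) (g : G) c
  cont c := (NormAct.cont (G := G) c).comp continuous_subtype_val

theorem sub_OpenStab (N : Type w) [MulAction G N] [OpenStab G N] (P : Subgroup G) :
    OpenStab P N where
  isOpen x := (OpenStab.isOpen (G := G) x).preimage continuous_subtype_val

theorem sub_Equi (F A : Type*) [CommRing F] [CommRing A] [Algebra F A] [MulSemiringAction G F]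
    [MulSemiringAction G A] [Equi G F A] (P : Subgroup G) : Equi P F A where
  smul_algebraMap g r := Equi.smul_algebraMap (G := G) (g : G) r

theorem sub_FixedT {X : Type*} [MulAction G X] (T : X) [FixedT G T] (P : Subgroup G) :
    FixedT P T where
  fixed g := FixedT.fixed (G := G) (T := T) (g : G)

end Sub

section Final

variable {k : Type y} (C : Type u) (kb : Type v) (N : Type w)
  [Field k] [NormedField kb] [IsUltrametricDist kb] [IsAlgClosed kb] [Algebra k kb]
  [IsGalois k kb]
  [NontriviallyNormedField C] [IsUltrametricDist C] [CompleteSpace C] [IsAlgClosed C] [CharZero C]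
  [Field N] [Algebra kb C] [Algebra kb N] [TrdegOne kb N]
  [MulSemiringAction Gal(kb/k) C] [MulSemiringAction Gal(kb/k) N]
  [NormAct Gal(kb/k) C] [OpenStab Gal(kb/k) N] [Equi Gal(kb/k) kb C] [Equi Gal(kb/k) kb N]

/-- **A3**, in the form `hU` of `P025H505.exists_fixed_K` -/
theorem fixed_edge_unique (hnorm : ∀ x : kb, ‖algebraMap kb C x‖ = ‖x‖)
    (hd : DenseRange (algebraMap kb C))
    (hcl : ∀ (T : N) [Fact (Transcendental kb T)] (n : ℕ) [NeZero n],
      TopClosed (RatFunc C) (F1 C) (F2 C) (NCT C kb N T) n)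
    (hroot : ∀ n : ℕ, 0 < n → UnitRoot C kb N n)
    (T : N) [Fact (Transcendental kb T)] [FixedT Gal(kb/k) T]
    (q : ℕ) [hq : Fact q.Prime] (H : Subgroup Gal(kb/k)) (hH : IsClosed (H : Set Gal(kb/k)))
    (hpro : P025H281.IsPro q H) (hval : ValCond q H) (e e' : ET C kb N T)
    (he : ∀ s : H, s • e = e) (he' : ∀ s : H, s • e' = e') : e = e' := by
  have i1 : NormAct H C := sub_NormAct C H
  have i2 : OpenStab H N := sub_OpenStab N H
  have i3 : Equi H kb C := sub_Equi kb C H
  have i4 : Equi H kb N := sub_Equi kb N H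
  have i5 : FixedT H T := sub_FixedT T H
  have : CompactSpace H := isCompact_iff_compactSpace.1 hH.isCompact
  have : NeZero q := ⟨hq.out.ne_zero⟩
  obtain ⟨π, hπH, hπ0, hπ1, hπ⟩ := hval
  exact edge_unique H C kb N (q := q) (fun U _ hU => hpro.index_eq U hU) (π := π)
    (fun g => hπH g g.2) hπ0 (by rw [hnorm]; exact hπ1)
    (fun u hu => by
      rw [hnorm, hnorm]
      exact hπ u (fun s hs => hu ⟨s, hs⟩))
    (fun T _ => graphExact_NCT C kb N T q (hcl T q)) (hroot _ (pow_pos hq.out.pos 2)) hd T
    (e := e) (e' := e') he he'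

end Final

end P025H444
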